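import Mathlib

/-!
Talagrand's fractional versus integral expectation thresholds: the case of a fractional
cover whose support consists of pairwise disjoint sets.
-/

namespace Vale.Agent.Results.P034.DisjointSupport

open Finset

/-- A Bernoulli type inequality. -/
theorem pow_succ_add_le (s b : ℝ) (hs : 0 ≤ s) (hb : 0 ≤ b) (k : ℕ) :
    s ^ (k + 1) + (k + 1) * b * s ^ k ≤ (s + b) ^ (k + 1) := by
  induction k with
  | zero => simp
  | succ k ih =>
    have h1 : (s + b) ^ (k + 1 + 1) = (s + b) * (s + b) ^ (k + 1) := by ring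
    have h2 : (s + b) * (s ^ (k + 1) + (k + 1) * b * s ^ k) ≤ (s + b) * (s + b) ^ (k + 1) :=
      mul_le_mul_of_nonneg_left ih (by positivity)
    have h3 : (0 : ℝ) ≤ (k + 1) * b ^ 2 * s ^ k := by positivity
    have h4 : (s + b) * (s ^ (k + 1) + (k + 1) * b * s ^ k)
        = s ^ (k + 1 + 1) + ((k + 1 : ℕ) + 1 : ℝ) * b * s ^ (k + 1) + (k + 1) * b ^ 2 * s ^ k := by
      push_cast
      ring
    rw [h1]
    linarith

/-- Elementary symmetric sums are bounded by powers of the sum. -/
theorem esymm_le {ι : Type} [DecidableEq ι] (b : ι → ℝ) (hb : ∀ i, 0 ≤ b i) (D : Finset ι) :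
    ∀ k : ℕ, ∑ T ∈ D.powersetCard k, ∏ i ∈ T, b i ≤ (∑ i ∈ D, b i) ^ k / (k.factorial : ℝ) := by
  induction D using Finset.induction_on with
  | empty =>
    intro k
    rcases Nat.eq_zero_or_pos k with hk | hk
    · subst hk
      simp
    · rw [Finset.powersetCard_eq_empty.mpr (by simpa using hk)]
      simp
      positivity
  | insert a D ha ih =>
    intro k
    rcases Nat.eq_zero_or_pos k with hk | hk
    · subst hk
      simp
    · obtain ⟨k, rfl⟩ : ∃ m, k = m + 1 := ⟨k - 1, by omega⟩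
      rw [Finset.powersetCard_succ_insert ha, Finset.sum_union, Finset.sum_image]
      · have e1 : ∑ T ∈ D.powersetCard k, ∏ i ∈ insert a T, b i
            = b a * ∑ T ∈ D.powersetCard k, ∏ i ∈ T, b i := by
          rw [Finset.mul_sum]
          apply Finset.sum_congr rfl
          intro T hT
          have haT : a ∉ T := fun h => ha ((Finset.mem_powersetCard.mp hT).1 h)
          rw [Finset.prod_insert haT]
        rw [e1, Finset.sum_insert ha]
        have i1 := ih (k + 1)
        have i2 := ih k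
        set s := ∑ i ∈ D, b i with hs
        have hs0 : 0 ≤ s := Finset.sum_nonneg (fun i _ => hb i)
        have hb0 := hb a
        have hkf : (0 : ℝ) < (k.factorial : ℝ) := by positivity
        have hkf1 : ((k + 1).factorial : ℝ) = (k + 1) * (k.factorial : ℝ) := by
          rw [Nat.factorial_succ]
          push_cast
          ring
        have key := pow_succ_add_le s (b a) hs0 hb0 k
        have i2' : b a * ∑ T ∈ D.powersetCard k, ∏ i ∈ T, b i ≤ b a * (s ^ k / (k.factorial : ℝ)) :=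
          mul_le_mul_of_nonneg_left i2 hb0
        calc ∑ T ∈ D.powersetCard (k + 1), ∏ i ∈ T, b i + b a * ∑ T ∈ D.powersetCard k, ∏ i ∈ T, b i
            ≤ s ^ (k + 1) / ((k + 1).factorial : ℝ) + b a * (s ^ k / (k.factorial : ℝ)) :=
              add_le_add i1 i2'
          _ = (s ^ (k + 1) + (k + 1) * b a * s ^ k) / ((k + 1).factorial : ℝ) := by
              rw [hkf1]
              field_simp
          _ ≤ (b a + s) ^ (k + 1) / ((k + 1).factorial : ℝ) := by
              rw [add_comm (b a) s]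
              apply div_le_div_of_nonneg_right key
              positivity
      · intro T hT T' hT' h
        have haT : a ∉ T := fun h => ha ((Finset.mem_powersetCard.mp hT).1 h)
        have haT' : a ∉ T' := fun h => ha ((Finset.mem_powersetCard.mp hT').1 h)
        have := congrArg (fun U => U.erase a) h
        simpa [Finset.erase_insert haT, Finset.erase_insert haT'] using this
      · rw [Finset.disjoint_left]
        intro T hT hT'
        rw [Finset.mem_image] at hT'
        obtain ⟨T', _, rfl⟩ := hT'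
        exact ha ((Finset.mem_powersetCard.mp hT).1 (Finset.mem_insert_self a T'))

/-- Every real number in `(0, 1]` lies in a unique interval `(16 ^ (-(j+1)), 16 ^ (-j)]`. -/
theorem exists_class (x : ℝ) (hx0 : 0 < x) (hx1 : x ≤ 1) :
    ∃ j : ℕ, (1 / 16 : ℝ) ^ (j + 1) < x ∧ x ≤ (1 / 16 : ℝ) ^ j := by
  classical
  have h := exists_pow_lt_of_lt_one hx0 (by norm_num : (1 / 16 : ℝ) < 1)
  have hspec := Nat.find_spec h
  rcases Nat.eq_zero_or_pos (Nat.find h) with h0 | h0
  · rw [h0] at hspec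
    simp at hspec
    linarith
  · refine ⟨Nat.find h - 1, ?_, ?_⟩
    · rw [Nat.sub_add_cancel h0]
      exact hspec
    · have := Nat.find_min h (m := Nat.find h - 1) (by omega)
      exact not_lt.mp this

theorem geom_bound (q : ℝ) (hq0 : 0 ≤ q) (hq1 : q < 1) (J : Finset ℕ) :
    ∑ j ∈ J, q ^ (j + 1) ≤ q / (1 - q) := by
  have hsub : J ⊆ Finset.range (J.sup id + 1) := by
    intro j hj
    rw [Finset.mem_range]
    have : id j ≤ J.sup id := Finset.le_sup hj
    simp only [id] at this
    omega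
  have h1 : 0 < 1 - q := by linarith
  calc ∑ j ∈ J, q ^ (j + 1) ≤ ∑ j ∈ Finset.range (J.sup id + 1), q ^ (j + 1) :=
        Finset.sum_le_sum_of_subset_of_nonneg hsub (fun _ _ _ => by positivity)
    _ = q * ∑ j ∈ Finset.range (J.sup id + 1), q ^ j := by
        rw [Finset.mul_sum]
        apply Finset.sum_congr rfl
        intro j _
        ring
    _ ≤ q * (1 / (1 - q)) := by
        apply mul_le_mul_of_nonneg_left _ hq0
        have h := geom_sum_mul_neg q (J.sup id + 1)
        rw [le_div_iff₀ h1, h]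
        have : 0 ≤ q ^ (J.sup id + 1) := by positivity
        linarith
    _ = q / (1 - q) := by ring

theorem lin_bound (j : ℕ) : (j : ℝ) * (1 / 16 : ℝ) ^ j ≤ (1 / 4 : ℝ) ^ (j + 1) := by
  have h1 : (4 * (j : ℝ)) ≤ (4 : ℝ) ^ j := by
    have : 4 * j ≤ 4 ^ j := by
      rcases Nat.eq_zero_or_pos j with h0 | h0
      · subst h0
        simp
      · obtain ⟨i, rfl⟩ : ∃ i, j = i + 1 := ⟨j - 1, by omega⟩
        have : i < 4 ^ i := Nat.lt_pow_self (by norm_num)
        rw [pow_succ]
        omega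
    exact_mod_cast this
  have h2 : (1 / 16 : ℝ) ^ j = (1 / 4 : ℝ) ^ j * (1 / 4 : ℝ) ^ j := by
    rw [← mul_pow]
    norm_num
  have h3 : (1 / 4 : ℝ) ^ j * (4 : ℝ) ^ j = 1 := by
    rw [← mul_pow]
    norm_num
  have h4 : (0 : ℝ) ≤ (1 / 4 : ℝ) ^ j := by positivity
  have h5 : (j : ℝ) * (1 / 4 : ℝ) ^ j ≤ 1 / 4 := by
    have := mul_le_mul_of_nonneg_left h1 h4
    linarith
  rw [h2, pow_succ]
  have := mul_le_mul_of_nonneg_right h5 h4
  linarith

/-- The cost of one class of the cover. -/
theorem class_cost {X : Type} [DecidableEq X] (g : Finset X → ℝ) (p : ℝ) (hp0 : 0 ≤ p)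
    (hg0 : ∀ S, 0 ≤ g S)
    (hdisj : ∀ S T, g S ≠ 0 → g T ≠ 0 → S ≠ T → Disjoint S T)
    (E : Finset (Finset X)) (hE : ∀ S ∈ E, g S ≠ 0 ∧ S.Nonempty) (j : ℕ)
    (hcl : ∀ S ∈ E, (1 / 16 : ℝ) ^ (j + 1) < g S) (k : ℕ)
    (hk : 1 + j + ⌊(16 : ℝ) ^ j * (∑ S ∈ E, g S * p ^ S.card) / 4⌋₊ = k) :
    ∑ T ∈ E.powersetCard k, (p / 600) ^ (T.biUnion id).card ≤ (1 / 3 : ℝ) ^ (j + 1) := by
  set W : ℝ := ∑ S ∈ E, g S * p ^ S.card with hW
  have hW0 : 0 ≤ W := Finset.sum_nonneg (fun S _ => mul_nonneg (hg0 S) (by positivity))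
  -- step 1: each term is at most a product
  have step1 : ∀ T ∈ E.powersetCard k,
      (p / 600) ^ (T.biUnion id).card ≤ ∏ S ∈ T, (p ^ S.card / 600) := by
    intro T hT
    rw [Finset.mem_powersetCard] at hT
    have hpd : (T : Set (Finset X)).PairwiseDisjoint id := by
      intro S hS S' hS' hne
      exact hdisj S S' (hE S (hT.1 hS)).1 (hE S' (hT.1 hS')).1 hne
    rw [Finset.card_biUnion hpd, ← Finset.prod_pow_eq_pow_sum]
    apply Finset.prod_le_prod
    · intro S _
      positivity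
    · intro S hS
      have hne : S.Nonempty := (hE S (hT.1 hS)).2
      have hc : 1 ≤ S.card := Finset.card_pos.mpr hne
      simp only [id]
      rw [div_pow]
      apply div_le_div_of_nonneg_left (by positivity) (by norm_num)
      calc (600 : ℝ) = 600 ^ 1 := by norm_num
        _ ≤ 600 ^ S.card := pow_le_pow_right₀ (by norm_num) hc
  -- step 2: elementary symmetric bound
  have step2 := esymm_le (fun S : Finset X => p ^ S.card / 600) (fun S => by positivity) E k
  -- step 3: the sum of the weights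
  have step3 : ∑ S ∈ E, p ^ S.card / 600 ≤ 64 * (k : ℝ) / 600 := by
    rw [← Finset.sum_div]
    apply div_le_div_of_nonneg_right _ (by norm_num)
    have h1 : ∑ S ∈ E, p ^ S.card ≤ ∑ S ∈ E, (16 : ℝ) ^ (j + 1) * (g S * p ^ S.card) := by
      apply Finset.sum_le_sum
      intro S hS
      have h2 := hcl S hS
      have h3 : (16 : ℝ) ^ (j + 1) * (1 / 16 : ℝ) ^ (j + 1) = 1 := by
        rw [← mul_pow]
        norm_num
      have h4 : (0 : ℝ) ≤ p ^ S.card := by positivity
      have h5 : (1 : ℝ) ≤ (16 : ℝ) ^ (j + 1) * g S := by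
        rw [← h3]
        exact mul_le_mul_of_nonneg_left h2.le (by positivity)
      calc p ^ S.card = 1 * p ^ S.card := by ring
        _ ≤ ((16 : ℝ) ^ (j + 1) * g S) * p ^ S.card := mul_le_mul_of_nonneg_right h5 h4
        _ = (16 : ℝ) ^ (j + 1) * (g S * p ^ S.card) := by ring
    rw [← Finset.mul_sum] at h1
    have h6 : (16 : ℝ) ^ j * W / 4 < ⌊(16 : ℝ) ^ j * W / 4⌋₊ + 1 := Nat.lt_floor_add_one _
    have h7 : ((⌊(16 : ℝ) ^ j * W / 4⌋₊ : ℝ) + 1) ≤ (k : ℝ) := by
      have : ⌊(16 : ℝ) ^ j * W / 4⌋₊ + 1 ≤ k := by omega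
      exact_mod_cast this
    have h8 : (16 : ℝ) ^ (j + 1) * W = 64 * ((16 : ℝ) ^ j * W / 4) := by ring
    linarith
  have hA0 : 0 ≤ ∑ S ∈ E, p ^ S.card / 600 := Finset.sum_nonneg (fun S _ => by positivity)
  have hk1 : j + 1 ≤ k := by omega
  have hkpos : (0 : ℝ) < (k.factorial : ℝ) := by positivity
  -- step 4
  have step4 : (∑ S ∈ E, p ^ S.card / 600) ^ k / (k.factorial : ℝ) ≤ (1 / 3 : ℝ) ^ k := by
    have h1 : (∑ S ∈ E, p ^ S.card / 600) ^ k ≤ (64 * (k : ℝ) / 600) ^ k :=
      pow_le_pow_left₀ hA0 step3 k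
    have h2 : (k : ℝ) ^ k / (k.factorial : ℝ) ≤ Real.exp k :=
      Real.pow_div_factorial_le_exp (k : ℝ) (Nat.cast_nonneg k) k
    have h3 : Real.exp (k : ℝ) = Real.exp 1 ^ k := by
      have := Real.exp_nat_mul 1 k
      rwa [mul_one] at this
    have h4 : Real.exp 1 ≤ 2.72 := by
      have := Real.exp_one_lt_d9
      linarith
    have h5 : (64 * (k : ℝ) / 600) ^ k / (k.factorial : ℝ)
        = (64 / 600 : ℝ) ^ k * ((k : ℝ) ^ k / (k.factorial : ℝ)) := by
      rw [show 64 * (k : ℝ) / 600 = (64 / 600 : ℝ) * (k : ℝ) by ring, mul_pow]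
      ring
    calc (∑ S ∈ E, p ^ S.card / 600) ^ k / (k.factorial : ℝ)
        ≤ (64 * (k : ℝ) / 600) ^ k / (k.factorial : ℝ) :=
          div_le_div_of_nonneg_right h1 hkpos.le
      _ = (64 / 600 : ℝ) ^ k * ((k : ℝ) ^ k / (k.factorial : ℝ)) := h5
      _ ≤ (64 / 600 : ℝ) ^ k * Real.exp 1 ^ k := by
          rw [← h3]
          exact mul_le_mul_of_nonneg_left h2 (by positivity)
      _ = (64 / 600 * Real.exp 1) ^ k := by rw [mul_pow]
      _ ≤ (1 / 3 : ℝ) ^ k := by
          apply pow_le_pow_left₀ (by positivity)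
          have : (0 : ℝ) < Real.exp 1 := Real.exp_pos 1
          linarith
  calc ∑ T ∈ E.powersetCard k, (p / 600) ^ (T.biUnion id).card
      ≤ ∑ T ∈ E.powersetCard k, ∏ S ∈ T, (p ^ S.card / 600) := Finset.sum_le_sum step1
    _ ≤ (∑ S ∈ E, p ^ S.card / 600) ^ k / (k.factorial : ℝ) := step2
    _ ≤ (1 / 3 : ℝ) ^ k := step4
    _ ≤ (1 / 3 : ℝ) ^ (j + 1) := pow_le_pow_of_le_one (by norm_num) (by norm_num) hk1

/-- Whenever a family `F` of subsets of a finite set has a fractional cover `g` of cost at most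
`1/2` at `p` whose support consists of pairwise disjoint sets, the family `F` has a cover of
cost at most `1/2` at `p / 600`. -/
theorem result (X : Type) [Fintype X] [DecidableEq X]
    (F : Finset (Finset X)) (g : Finset X → ℝ) (p : ℝ)
    (hp0 : 0 ≤ p) (hg0 : ∀ S, 0 ≤ g S) (hg1 : ∀ S, g S ≤ 1)
    (hcov : ∀ H ∈ F, 1 ≤ ∑ S ∈ H.powerset, g S)
    (hcost : ∑ S : Finset X, g S * p ^ S.card ≤ 1 / 2)
    (hdisj : ∀ S T, g S ≠ 0 → g T ≠ 0 → S ≠ T → Disjoint S T) :
    ∃ G : Finset (Finset X), (∀ H ∈ F, ∃ S ∈ G, S ⊆ H) ∧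
      ∑ S ∈ G, (p / 600) ^ S.card ≤ 1 / 2 := by
  classical
  have hclsex : ∀ S : Finset X, ∃ j : ℕ,
      0 < g S → ((1 / 16 : ℝ) ^ (j + 1) < g S ∧ g S ≤ (1 / 16 : ℝ) ^ j) := by
    intro S
    by_cases h : 0 < g S
    · obtain ⟨j, hj⟩ := exists_class (g S) h (hg1 S)
      exact ⟨j, fun _ => hj⟩
    · exact ⟨0, fun h' => absurd h' h⟩
  choose cls hcls using hclsex
  set D : Finset (Finset X) := Finset.univ.filter (fun S => g S ≠ 0 ∧ S.Nonempty) with hD
  have hDmem : ∀ S ∈ D, g S ≠ 0 ∧ S.Nonempty := by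
    intro S hS
    rw [hD, Finset.mem_filter] at hS
    exact hS.2
  have hDpos : ∀ S ∈ D, 0 < g S := fun S hS =>
    lt_of_le_of_ne (hg0 S) (Ne.symm (hDmem S hS).1)
  set J : Finset ℕ := D.image cls with hJ
  set W : ℕ → ℝ := fun j => ∑ S ∈ D.filter (fun S => cls S = j), g S * p ^ S.card with hW
  set k : ℕ → ℕ := fun j => 1 + j + ⌊(16 : ℝ) ^ j * W j / 4⌋₊ with hk
  have hW0 : ∀ j, 0 ≤ W j := fun j =>
    Finset.sum_nonneg (fun S _ => mul_nonneg (hg0 S) (by positivity))
  have hWsum : ∑ j ∈ J, W j ≤ 1 / 2 := by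
    have h1 : ∑ j ∈ J, W j = ∑ S ∈ D, g S * p ^ S.card :=
      Finset.sum_fiberwise_of_maps_to (fun S hS => Finset.mem_image_of_mem cls hS) _
    rw [h1]
    calc ∑ S ∈ D, g S * p ^ S.card ≤ ∑ S : Finset X, g S * p ^ S.card :=
          Finset.sum_le_sum_of_subset_of_nonneg (Finset.subset_univ _)
            (fun S _ _ => mul_nonneg (hg0 S) (by positivity))
      _ ≤ 1 / 2 := hcost
  have hgempty : g ∅ ≤ 1 / 2 := by
    have h1 : g ∅ * p ^ (∅ : Finset X).card ≤ ∑ S : Finset X, g S * p ^ S.card :=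
      Finset.single_le_sum (f := fun S => g S * p ^ S.card)
        (fun S _ => mul_nonneg (hg0 S) (by positivity)) (Finset.mem_univ ∅)
    simp only [Finset.card_empty, pow_zero, mul_one] at h1
    linarith
  refine ⟨(J.sigma (fun j => (D.filter (fun S => cls S = j)).powersetCard (k j))).image
    (fun x => x.2.biUnion id), ?_, ?_⟩
  · -- covering
    intro H hH
    set I : Finset (Finset X) := D.filter (fun S => S ⊆ H) with hI
    have hIsum : 1 / 2 ≤ ∑ S ∈ I, g S := by
      have h1 := hcov H hH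
      have h2 : ∑ S ∈ H.powerset, g S ≤ g ∅ + ∑ S ∈ I, g S := by
        rw [← Finset.sum_filter_add_sum_filter_not H.powerset (fun S => S ∈ D)]
        have e1 : H.powerset.filter (fun S => S ∈ D) = I := by
          ext S
          simp only [hI, Finset.mem_filter, Finset.mem_powerset]
          tauto
        rw [e1, add_comm]
        refine add_le_add ?_ le_rfl
        calc ∑ S ∈ H.powerset.filter (fun S => S ∉ D), g S
            ≤ ∑ S ∈ H.powerset.filter (fun S => S ∉ D), (if S = ∅ then g ∅ else 0) := by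
              apply Finset.sum_le_sum
              intro S hS
              rw [Finset.mem_filter] at hS
              by_cases hSe : S = ∅
              · simp [hSe]
              · simp only [hSe, if_false]
                have : g S = 0 := by
                  by_contra hne
                  apply hS.2
                  rw [hD, Finset.mem_filter]
                  exact ⟨Finset.mem_univ _, hne, Finset.nonempty_iff_ne_empty.mpr hSe⟩
                rw [this]
          _ ≤ g ∅ := by
              rw [Finset.sum_ite_eq']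
              split_ifs
              · exact le_refl _
              · exact hg0 ∅
      linarith
    by_contra hcon
    have hlt : ∀ j ∈ J, (I.filter (fun S => cls S = j)).card < k j := by
      intro j hj
      by_contra hge
      rw [not_lt] at hge
      obtain ⟨T, hTsub, hTcard⟩ := Finset.exists_subset_card_eq hge
      apply hcon
      refine ⟨T.biUnion id, ?_, ?_⟩
      · rw [Finset.mem_image]
        refine ⟨⟨j, T⟩, ?_, rfl⟩
        rw [Finset.mem_sigma]
        refine ⟨hj, ?_⟩
        rw [Finset.mem_powersetCard]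
        refine ⟨?_, hTcard⟩
        intro S hS
        have h := hTsub hS
        rw [Finset.mem_filter, hI, Finset.mem_filter] at h
        rw [Finset.mem_filter]
        exact ⟨h.1.1, h.2⟩
      · apply Finset.biUnion_subset.mpr
        intro S hS
        have h := hTsub hS
        rw [Finset.mem_filter, hI, Finset.mem_filter] at h
        exact h.1.2
    have hIJ : ∀ S ∈ I, cls S ∈ J := fun S hS =>
      Finset.mem_image_of_mem cls (Finset.mem_filter.mp hS).1
    have h3 : ∑ S ∈ I, g S ≤ ∑ S ∈ I, (1 / 16 : ℝ) ^ cls S := by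
      apply Finset.sum_le_sum
      intro S hS
      exact (hcls S (hDpos S (Finset.mem_filter.mp hS).1)).2
    have h4 : ∑ S ∈ I, (1 / 16 : ℝ) ^ cls S
        = ∑ j ∈ J, ∑ S ∈ I.filter (fun S => cls S = j), (1 / 16 : ℝ) ^ cls S :=
      (Finset.sum_fiberwise_of_maps_to hIJ _).symm
    have h5 : ∀ j ∈ J, ∑ S ∈ I.filter (fun S => cls S = j), (1 / 16 : ℝ) ^ cls S
        ≤ (j : ℝ) * (1 / 16 : ℝ) ^ j + W j / 4 := by
      intro j hj
      have e : ∑ S ∈ I.filter (fun S => cls S = j), (1 / 16 : ℝ) ^ cls S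
          = ((I.filter (fun S => cls S = j)).card : ℝ) * (1 / 16 : ℝ) ^ j := by
        rw [Finset.sum_congr rfl (fun S hS => by rw [(Finset.mem_filter.mp hS).2]),
          Finset.sum_const, nsmul_eq_mul]
      rw [e]
      have hc := hlt j hj
      have hfl : (⌊(16 : ℝ) ^ j * W j / 4⌋₊ : ℝ) ≤ (16 : ℝ) ^ j * W j / 4 :=
        Nat.floor_le (by have := hW0 j; positivity)
      have hc' : ((I.filter (fun S => cls S = j)).card : ℝ)
          ≤ (j : ℝ) + ⌊(16 : ℝ) ^ j * W j / 4⌋₊ := by
        have : (I.filter (fun S => cls S = j)).card ≤ j + ⌊(16 : ℝ) ^ j * W j / 4⌋₊ := by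
          simp only [hk] at hc
          omega
        exact_mod_cast this
      have hpos : (0 : ℝ) ≤ (1 / 16 : ℝ) ^ j := by positivity
      have h16 : (16 : ℝ) ^ j * (1 / 16 : ℝ) ^ j = 1 := by
        rw [← mul_pow]
        norm_num
      calc ((I.filter (fun S => cls S = j)).card : ℝ) * (1 / 16 : ℝ) ^ j
          ≤ ((j : ℝ) + (16 : ℝ) ^ j * W j / 4) * (1 / 16 : ℝ) ^ j :=
            mul_le_mul_of_nonneg_right (by linarith) hpos
        _ = (j : ℝ) * (1 / 16 : ℝ) ^ j + W j / 4 := by
            linear_combination (W j / 4) * h16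
    have h6 : ∑ j ∈ J, ((j : ℝ) * (1 / 16 : ℝ) ^ j + W j / 4) ≤ 1 / 3 + 1 / 8 := by
      rw [Finset.sum_add_distrib]
      have a1 : ∑ j ∈ J, (j : ℝ) * (1 / 16 : ℝ) ^ j ≤ 1 / 3 := by
        calc ∑ j ∈ J, (j : ℝ) * (1 / 16 : ℝ) ^ j ≤ ∑ j ∈ J, (1 / 4 : ℝ) ^ (j + 1) :=
              Finset.sum_le_sum (fun j _ => lin_bound j)
          _ ≤ (1 / 4) / (1 - 1 / 4) := geom_bound (1 / 4) (by norm_num) (by norm_num) J
          _ = 1 / 3 := by norm_num
      have a2 : ∑ j ∈ J, W j / 4 ≤ 1 / 8 := by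
        rw [← Finset.sum_div]
        linarith
      linarith
    have h7 : ∑ S ∈ I, g S ≤ 1 / 3 + 1 / 8 := by
      calc ∑ S ∈ I, g S ≤ ∑ S ∈ I, (1 / 16 : ℝ) ^ cls S := h3
        _ = ∑ j ∈ J, ∑ S ∈ I.filter (fun S => cls S = j), (1 / 16 : ℝ) ^ cls S := h4
        _ ≤ ∑ j ∈ J, ((j : ℝ) * (1 / 16 : ℝ) ^ j + W j / 4) := Finset.sum_le_sum h5
        _ ≤ 1 / 3 + 1 / 8 := h6
    linarith
  · -- cost
    calc ∑ U ∈ (J.sigma (fun j => (D.filter (fun S => cls S = j)).powersetCard (k j))).image
          (fun x => x.2.biUnion id), (p / 600) ^ U.card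
        ≤ ∑ x ∈ J.sigma (fun j => (D.filter (fun S => cls S = j)).powersetCard (k j)),
            (p / 600) ^ (x.2.biUnion id).card :=
          Finset.sum_image_le_of_nonneg (fun U _ => by positivity)
      _ = ∑ j ∈ J, ∑ T ∈ (D.filter (fun S => cls S = j)).powersetCard (k j),
            (p / 600) ^ (T.biUnion id).card := Finset.sum_sigma _ _ _
      _ ≤ ∑ j ∈ J, (1 / 3 : ℝ) ^ (j + 1) := by
          apply Finset.sum_le_sum
          intro j _
          apply class_cost g p hp0 hg0 hdisj (D.filter (fun S => cls S = j)) _ j _ (k j) rfl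
          · intro S hS
            exact hDmem S (Finset.mem_filter.mp hS).1
          · intro S hS
            have h := Finset.mem_filter.mp hS
            have := (hcls S (hDpos S h.1)).1
            rw [h.2] at this
            exact this
      _ ≤ (1 / 3) / (1 - 1 / 3) := geom_bound (1 / 3) (by norm_num) (by norm_num) J
      _ = 1 / 2 := by norm_num

end Vale.Agent.Results.P034.DisjointSupport
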