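import Mathlib
import Vale.Agent.Results.P034.DisjointSupport

/-!
Talagrand's fractional versus integral expectation thresholds: the case of a fractional cover
whose support consists of intervals of a linearly ordered ground set (arbitrary overlaps).
-/

namespace Vale.Agent.Results.P034.IntervalSupport

open Finset
open Vale.Agent.Results.P034.DisjointSupport (esymm_le geom_bound)

/-! ### Numerical lemmas -/

/-- The dyadic multiples of `x` that are at most one sum to at most two. -/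
theorem geom_two (x : ℝ) (hx : 0 ≤ x) (m : ℕ) :
    ∑ s ∈ range m, (if (2 : ℝ) ^ s * x ≤ 1 then (2 : ℝ) ^ s * x else 0) ≤ 2 := by
  induction m with
  | zero => simp
  | succ m ih =>
    rw [Finset.sum_range_succ]
    by_cases h : (2 : ℝ) ^ m * x ≤ 1
    · rw [if_pos h]
      have h1 : ∑ s ∈ range m, (if (2 : ℝ) ^ s * x ≤ 1 then (2 : ℝ) ^ s * x else 0)
          ≤ ∑ s ∈ range m, (2 : ℝ) ^ s * x := by
        apply Finset.sum_le_sum
        intro s _
        split_ifs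
        · exact le_rfl
        · positivity
      have h2 : ∑ s ∈ range m, (2 : ℝ) ^ s * x = ((2 : ℝ) ^ m - 1) * x := by
        rw [← Finset.sum_mul, geom_sum_eq (by norm_num : (2 : ℝ) ≠ 1)]
        norm_num
      have h3 : ((2 : ℝ) ^ m - 1) * x ≤ (2 : ℝ) ^ m * x := by nlinarith
      linarith
    · rw [if_neg h]
      linarith

/-- A weighted sum of `⌊s/2⌋` against a geometric sequence. -/
theorem floor_half_sum (m : ℕ) :
    ∑ s ∈ range (2 * m), ((s / 2 : ℕ) : ℝ) * (1 / 2 : ℝ) ^ (s + 1)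
      ≤ 1 / 3 - (3 * (m : ℝ) + 1) / 3 * (1 / 4 : ℝ) ^ m := by
  induction m with
  | zero => simp
  | succ m ih =>
    have e0 : 2 * (m + 1) = 2 * m + 1 + 1 := by ring
    rw [e0, Finset.sum_range_succ, Finset.sum_range_succ]
    have d1 : (2 * m) / 2 = m := by omega
    have d2 : (2 * m + 1) / 2 = m := by omega
    rw [d1, d2]
    have p0 : (1 / 2 : ℝ) ^ (2 * m) = (1 / 4 : ℝ) ^ m := by
      rw [pow_mul]
      norm_num
    have p1 : (1 / 2 : ℝ) ^ (2 * m + 1) = (1 / 2) * (1 / 4 : ℝ) ^ m := by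
      rw [pow_succ, p0]
      ring
    have p2 : (1 / 2 : ℝ) ^ (2 * m + 1 + 1) = (1 / 4) * (1 / 4 : ℝ) ^ m := by
      rw [pow_succ, p1]
      ring
    have p3 : (1 / 4 : ℝ) ^ (m + 1) = (1 / 4) * (1 / 4 : ℝ) ^ m := by
      rw [pow_succ]
      ring
    rw [p1, p2, p3]
    push_cast
    nlinarith [ih]

/-- A polynomial factor is absorbed by a geometric one. -/
theorem sq_mul_pow_le (m : ℕ) (hm : 1 ≤ m) : (m : ℝ) ^ 2 * (1 / 50 : ℝ) ^ m ≤ 1 / 50 := by
  induction m, hm using Nat.le_induction with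
  | base => norm_num
  | succ m hm ih =>
    have hm' : (1 : ℝ) ≤ m := by exact_mod_cast hm
    have h1 : ((m + 1 : ℕ) : ℝ) ^ 2 ≤ 4 * (m : ℝ) ^ 2 := by
      push_cast
      nlinarith
    have h2 : (0 : ℝ) ≤ (1 / 50 : ℝ) ^ (m + 1) := by positivity
    calc ((m + 1 : ℕ) : ℝ) ^ 2 * (1 / 50 : ℝ) ^ (m + 1)
        ≤ 4 * (m : ℝ) ^ 2 * (1 / 50 : ℝ) ^ (m + 1) := mul_le_mul_of_nonneg_right h1 h2
      _ = (4 / 50) * ((m : ℝ) ^ 2 * (1 / 50 : ℝ) ^ m) := by
          rw [pow_succ]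
          ring
      _ ≤ (4 / 50) * (1 / 50) := mul_le_mul_of_nonneg_left ih (by norm_num)
      _ ≤ 1 / 50 := by norm_num

/-- Every real number in `(0, 1]` lies in a unique interval `(2 ^ (-(j+1)), 2 ^ (-j)]`. -/
theorem exists_class2 (x : ℝ) (hx0 : 0 < x) (hx1 : x ≤ 1) :
    ∃ j : ℕ, (1 / 2 : ℝ) ^ (j + 1) < x ∧ x ≤ (1 / 2 : ℝ) ^ j := by
  classical
  have h := exists_pow_lt_of_lt_one hx0 (by norm_num : (1 / 2 : ℝ) < 1)
  have hspec := Nat.find_spec h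
  rcases Nat.eq_zero_or_pos (Nat.find h) with h0 | h0
  · rw [h0] at hspec
    simp at hspec
    linarith
  · refine ⟨Nat.find h - 1, ?_, ?_⟩
    · rw [Nat.sub_add_cancel h0]
      exact hspec
    · have := Nat.find_min h (m := Nat.find h - 1) (by omega)
      exact not_lt.mp this


/-- The `floor_half_sum` bound over an arbitrary finite set of indices. -/
theorem floor_half_sum' (J : Finset ℕ) :
    ∑ s ∈ J, ((s / 2 : ℕ) : ℝ) * (1 / 2 : ℝ) ^ (s + 1) ≤ 1 / 3 := by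
  have hsub : J ⊆ Finset.range (2 * (J.sup id + 1)) := by
    intro j hj
    rw [Finset.mem_range]
    have : id j ≤ J.sup id := Finset.le_sup hj
    simp only [id] at this
    omega
  have hpos : (0 : ℝ) ≤ (3 * ((J.sup id + 1 : ℕ) : ℝ) + 1) / 3 * (1 / 4 : ℝ) ^ (J.sup id + 1) := by
    positivity
  calc ∑ s ∈ J, ((s / 2 : ℕ) : ℝ) * (1 / 2 : ℝ) ^ (s + 1)
      ≤ ∑ s ∈ Finset.range (2 * (J.sup id + 1)), ((s / 2 : ℕ) : ℝ) * (1 / 2 : ℝ) ^ (s + 1) :=
        Finset.sum_le_sum_of_subset_of_nonneg hsub (fun _ _ _ => by positivity)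
    _ ≤ 1 / 3 - (3 * ((J.sup id + 1 : ℕ) : ℝ) + 1) / 3 * (1 / 4 : ℝ) ^ (J.sup id + 1) :=
        floor_half_sum _
    _ ≤ 1 / 3 := by linarith

/-- Truncation is subadditive. -/
theorem sum_min_le {ι : Type} (M : Finset ι) (a : ι → ℝ) (ha : ∀ i ∈ M, 0 ≤ a i) (c : ℝ)
    (hc : 0 ≤ c) : min (∑ i ∈ M, a i) c ≤ ∑ i ∈ M, min (a i) c := by
  by_cases h : ∃ i ∈ M, c ≤ a i
  · obtain ⟨i, hi, hi1⟩ := h
    have h1 : min (a i) c ≤ ∑ i ∈ M, min (a i) c :=
      Finset.single_le_sum (f := fun i => min (a i) c)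
        (fun i hi => le_min (ha i hi) hc) hi
    rw [min_eq_right hi1] at h1
    exact (min_le_right _ _).trans h1
  · simp only [not_exists, not_and, not_le] at h
    have : ∑ i ∈ M, min (a i) c = ∑ i ∈ M, a i :=
      Finset.sum_congr rfl (fun i hi => min_eq_left (h i hi).le)
    rw [this]
    exact min_le_left _ _

/-- Counting lemma: if every class `j` contains fewer than `⌊2^j W_j / 4⌋ + ⌊j/2⌋ + 1` members
of `M`, then the total weight of `M` is small. -/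
theorem counting2 {α : Type} [DecidableEq α] (M : Finset α) (cls : α → ℕ) (J : Finset ℕ)
    (W : ℕ → ℝ) (hW0 : ∀ j, 0 ≤ W j) (hWsum : ∑ j ∈ J, W j ≤ 1) (hMJ : ∀ S ∈ M, cls S ∈ J)
    (hcnt : ∀ j ∈ J, (M.filter (fun S => cls S = j)).card
      < ⌊(2 : ℝ) ^ j * W j / 4⌋₊ + j / 2 + 1)
    (gh : α → ℝ) (hgh : ∀ S ∈ M, gh S ≤ (1 / 2 : ℝ) ^ (cls S + 1)) :
    ∑ S ∈ M, gh S ≤ 1 / 3 + 1 / 8 := by
  have h3 : ∑ S ∈ M, gh S ≤ ∑ S ∈ M, (1 / 2 : ℝ) ^ (cls S + 1) := Finset.sum_le_sum hgh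
  have h4 : ∑ S ∈ M, (1 / 2 : ℝ) ^ (cls S + 1)
      = ∑ j ∈ J, ∑ S ∈ M.filter (fun S => cls S = j), (1 / 2 : ℝ) ^ (cls S + 1) :=
    (Finset.sum_fiberwise_of_maps_to hMJ _).symm
  have h5 : ∀ j ∈ J, ∑ S ∈ M.filter (fun S => cls S = j), (1 / 2 : ℝ) ^ (cls S + 1)
      ≤ ((j / 2 : ℕ) : ℝ) * (1 / 2 : ℝ) ^ (j + 1) + W j / 8 := by
    intro j hj
    have e : ∑ S ∈ M.filter (fun S => cls S = j), (1 / 2 : ℝ) ^ (cls S + 1)
        = ((M.filter (fun S => cls S = j)).card : ℝ) * (1 / 2 : ℝ) ^ (j + 1) := by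
      rw [Finset.sum_congr rfl (fun S hS => by rw [(Finset.mem_filter.mp hS).2]),
        Finset.sum_const, nsmul_eq_mul]
    rw [e]
    have hc := hcnt j hj
    have hnn : (0 : ℝ) ≤ (2 : ℝ) ^ j * W j / 4 :=
      div_nonneg (mul_nonneg (by positivity) (hW0 j)) (by norm_num)
    have hfl : (⌊(2 : ℝ) ^ j * W j / 4⌋₊ : ℝ) ≤ (2 : ℝ) ^ j * W j / 4 := Nat.floor_le hnn
    have hc' : ((M.filter (fun S => cls S = j)).card : ℝ)
        ≤ ((j / 2 : ℕ) : ℝ) + ⌊(2 : ℝ) ^ j * W j / 4⌋₊ := by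
      have : (M.filter (fun S => cls S = j)).card ≤ j / 2 + ⌊(2 : ℝ) ^ j * W j / 4⌋₊ := by
        omega
      exact_mod_cast this
    have hpos : (0 : ℝ) ≤ (1 / 2 : ℝ) ^ (j + 1) := by positivity
    have h2 : (2 : ℝ) ^ j * (1 / 2 : ℝ) ^ (j + 1) = 1 / 2 := by
      rw [pow_succ, ← mul_assoc, ← mul_pow]
      norm_num
    calc ((M.filter (fun S => cls S = j)).card : ℝ) * (1 / 2 : ℝ) ^ (j + 1)
        ≤ (((j / 2 : ℕ) : ℝ) + (2 : ℝ) ^ j * W j / 4) * (1 / 2 : ℝ) ^ (j + 1) :=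
          mul_le_mul_of_nonneg_right (by linarith) hpos
      _ = ((j / 2 : ℕ) : ℝ) * (1 / 2 : ℝ) ^ (j + 1) + W j / 8 := by
          linear_combination (W j / 4) * h2
  have a1 := floor_half_sum' J
  calc ∑ S ∈ M, gh S ≤ ∑ S ∈ M, (1 / 2 : ℝ) ^ (cls S + 1) := h3
    _ = ∑ j ∈ J, ∑ S ∈ M.filter (fun S => cls S = j), (1 / 2 : ℝ) ^ (cls S + 1) := h4
    _ ≤ ∑ j ∈ J, (((j / 2 : ℕ) : ℝ) * (1 / 2 : ℝ) ^ (j + 1) + W j / 8) := Finset.sum_le_sum h5
    _ = ∑ j ∈ J, ((j / 2 : ℕ) : ℝ) * (1 / 2 : ℝ) ^ (j + 1) + (∑ j ∈ J, W j) / 8 := by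
        rw [Finset.sum_add_distrib, Finset.sum_div]
    _ ≤ 1 / 3 + 1 / 8 := by linarith

/-! ### Intervals described by pairs of endpoints -/

noncomputable section Pairs

variable {X : Type} [LinearOrder X] [Fintype X]

/-- The interval described by a pair of endpoints. -/
def Iv (q : X × X) : Finset X := Finset.univ.filter (fun x => q.1 ≤ x ∧ x ≤ q.2)

theorem mem_Iv (q : X × X) (x : X) : x ∈ Iv q ↔ q.1 ≤ x ∧ x ≤ q.2 := by
  simp [Iv]

/-- The pairs describing the nonempty sub-intervals of the interval described by `M`. -/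
def Sub (M : X × X) : Finset (X × X) :=
  Finset.univ.filter (fun S => M.1 ≤ S.1 ∧ S.1 ≤ S.2 ∧ S.2 ≤ M.2)

theorem mem_Sub (M S : X × X) : S ∈ Sub M ↔ M.1 ≤ S.1 ∧ S.1 ≤ S.2 ∧ S.2 ≤ M.2 := by
  simp [Sub]

theorem self_mem_Sub (M : X × X) (h : M.1 ≤ M.2) : M ∈ Sub M :=
  (mem_Sub M M).mpr ⟨le_rfl, h, le_rfl⟩

theorem Sub_trans {M S T : X × X} (hS : S ∈ Sub M) (hT : T ∈ Sub S) : T ∈ Sub M := by
  rw [mem_Sub] at *
  exact ⟨hS.1.trans hT.1, hT.2.1, hT.2.2.trans hS.2.2⟩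

theorem Iv_subset {M S : X × X} (hS : S ∈ Sub M) : Iv S ⊆ Iv M := by
  intro x hx
  rw [mem_Sub] at hS
  rw [mem_Iv] at *
  exact ⟨hS.1.trans hx.1, hx.2.trans hS.2.2⟩

theorem card_Iv_pos (q : X × X) (h : q.1 ≤ q.2) : 0 < (Iv q).card :=
  Finset.card_pos.mpr ⟨q.1, (mem_Iv q q.1).mpr ⟨le_rfl, h⟩⟩

theorem card_Sub_le (M : X × X) : (Sub M).card ≤ (Iv M).card ^ 2 := by
  have h : Sub M ⊆ (Iv M) ×ˢ (Iv M) := by
    intro S hS
    rw [mem_Sub] at hS
    rw [Finset.mem_product, mem_Iv, mem_Iv]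
    exact ⟨⟨hS.1, hS.2.1.trans hS.2.2⟩, ⟨hS.1.trans hS.2.1, hS.2.2⟩⟩
  calc (Sub M).card ≤ ((Iv M) ×ˢ (Iv M)).card := Finset.card_le_card h
    _ = (Iv M).card ^ 2 := by rw [Finset.card_product, sq]

theorem card_Iv_lt {M S : X × X} (hS : S ∈ Sub M) (hne : S ≠ M) :
    (Iv S).card < (Iv M).card := by
  apply Finset.card_lt_card
  refine ⟨Iv_subset hS, fun h => hne ?_⟩
  rw [mem_Sub] at hS
  have hM : M.1 ≤ M.2 := hS.1.trans (hS.2.1.trans hS.2.2)
  have h1 := h ((mem_Iv M M.1).mpr ⟨le_rfl, hM⟩)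
  have h2 := h ((mem_Iv M M.2).mpr ⟨hM, le_rfl⟩)
  rw [mem_Iv] at h1 h2
  exact Prod.ext (le_antisymm h1.1 hS.1) (le_antisymm hS.2.2 h2.2)

theorem Iv_inj {q q' : X × X} (hq : q.1 ≤ q.2) (hq' : q'.1 ≤ q'.2) (h : Iv q = Iv q') :
    q = q' := by
  have a1 : q.1 ∈ Iv q' := h ▸ (mem_Iv q q.1).mpr ⟨le_rfl, hq⟩
  have a2 : q.2 ∈ Iv q' := h ▸ (mem_Iv q q.2).mpr ⟨hq, le_rfl⟩
  have b1 : q'.1 ∈ Iv q := h.symm ▸ (mem_Iv q' q'.1).mpr ⟨le_rfl, hq'⟩
  have b2 : q'.2 ∈ Iv q := h.symm ▸ (mem_Iv q' q'.2).mpr ⟨hq', le_rfl⟩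
  rw [mem_Iv] at a1 a2 b1 b2
  exact Prod.ext (le_antisymm b1.1 a1.1) (le_antisymm a2.2 b2.2)

/-- The total weight of the sub-intervals. -/
def Gw (γ : X × X → ℝ) (M : X × X) : ℝ := ∑ S ∈ Sub M, γ S

theorem Gw_nonneg (γ : X × X → ℝ) (hγ : ∀ S, 0 ≤ γ S) (M : X × X) : 0 ≤ Gw γ M :=
  Finset.sum_nonneg (fun S _ => hγ S)

theorem le_Gw (γ : X × X → ℝ) (hγ : ∀ S, 0 ≤ γ S) {M S : X × X} (hS : S ∈ Sub M) :
    γ S ≤ Gw γ M :=
  Finset.single_le_sum (f := γ) (fun T _ => hγ T) hS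

open scoped Classical in
/-- The minimal heavy intervals of class `s`. -/
def Mcls (γ : X × X → ℝ) (s : ℕ) : Finset (X × X) :=
  Finset.univ.filter (fun M => M.1 ≤ M.2 ∧ (1 / 2 : ℝ) ^ (s + 2) ≤ Gw γ M ∧
    (∀ S ∈ Sub M, (2 : ℝ) ^ s * γ S ≤ 1) ∧
    (∀ M' ∈ Sub M, M' ≠ M → Gw γ M' < (1 / 2 : ℝ) ^ (s + 2)))

theorem mem_Mcls (γ : X × X → ℝ) (s : ℕ) (M : X × X) :
    M ∈ Mcls γ s ↔ (M.1 ≤ M.2 ∧ (1 / 2 : ℝ) ^ (s + 2) ≤ Gw γ M ∧
      (∀ S ∈ Sub M, (2 : ℝ) ^ s * γ S ≤ 1) ∧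
      (∀ M' ∈ Sub M, M' ≠ M → Gw γ M' < (1 / 2 : ℝ) ^ (s + 2))) := by
  simp only [Mcls, Finset.mem_filter, Finset.mem_univ, true_and]

/-- The part of the cost of the fractional cover attributed to class `s`. -/
def fcls (γ : X × X → ℝ) (p : ℝ) (s : ℕ) : ℝ :=
  ∑ S ∈ Finset.univ.filter (fun S : X × X => S.1 ≤ S.2),
    γ S * p ^ (Iv S).card * (if (2 : ℝ) ^ s * γ S ≤ 1 then (2 : ℝ) ^ s * γ S else 0)

theorem fcls_nonneg (γ : X × X → ℝ) (hγ0 : ∀ S, 0 ≤ γ S) (p : ℝ) (hp0 : 0 ≤ p) (s : ℕ) :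
    0 ≤ fcls γ p s := by
  apply Finset.sum_nonneg
  intro S _
  apply mul_nonneg (mul_nonneg (hγ0 S) (pow_nonneg hp0 _))
  split_ifs
  · exact mul_nonneg (by positivity) (hγ0 S)
  · exact le_rfl

theorem fcls_sum (γ : X × X → ℝ) (hγ0 : ∀ S, 0 ≤ γ S) (p : ℝ) (hp0 : 0 ≤ p)
    (hc : ∑ S ∈ Finset.univ.filter (fun S : X × X => S.1 ≤ S.2), γ S * p ^ (Iv S).card ≤ 1 / 2)
    (J : Finset ℕ) : ∑ s ∈ J, fcls γ p s ≤ 1 := by
  have hsub : J ⊆ Finset.range (J.sup id + 1) := by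
    intro j hj
    rw [Finset.mem_range]
    have : id j ≤ J.sup id := Finset.le_sup hj
    simp only [id] at this
    omega
  calc ∑ s ∈ J, fcls γ p s ≤ ∑ s ∈ Finset.range (J.sup id + 1), fcls γ p s :=
        Finset.sum_le_sum_of_subset_of_nonneg hsub (fun s _ _ => fcls_nonneg γ hγ0 p hp0 s)
    _ = ∑ S ∈ Finset.univ.filter (fun S : X × X => S.1 ≤ S.2), γ S * p ^ (Iv S).card *
          ∑ s ∈ Finset.range (J.sup id + 1),
            (if (2 : ℝ) ^ s * γ S ≤ 1 then (2 : ℝ) ^ s * γ S else 0) := by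
        simp only [fcls]
        rw [Finset.sum_comm]
        apply Finset.sum_congr rfl
        intro S _
        rw [Finset.mul_sum]
    _ ≤ ∑ S ∈ Finset.univ.filter (fun S : X × X => S.1 ≤ S.2), γ S * p ^ (Iv S).card * 2 := by
        apply Finset.sum_le_sum
        intro S _
        exact mul_le_mul_of_nonneg_left (geom_two (γ S) (hγ0 S) _)
          (mul_nonneg (hγ0 S) (pow_nonneg hp0 _))
    _ = (∑ S ∈ Finset.univ.filter (fun S : X × X => S.1 ≤ S.2), γ S * p ^ (Iv S).card) * 2 := by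
        rw [Finset.sum_mul]
    _ ≤ 1 := by linarith

/-- The minimal heavy intervals of one class that contain a fixed interval have pairwise
distinct left endpoints, so their costs are dominated by a geometric series. -/
theorem antichain_sum (γ : X × X → ℝ) (s : ℕ) (S : X × X) (hS : S.1 ≤ S.2) :
    ∑ M ∈ (Mcls γ s).filter (fun M => S ∈ Sub M), (1 / 50 : ℝ) ^ (Iv M).card ≤ 1 / 49 := by
  classical
  set A := (Mcls γ s).filter (fun M => S ∈ Sub M) with hA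
  set ν : X × X → ℕ := fun M => (Iv (M.1, S.1)).card - 1 with hν
  have hmem : ∀ M ∈ A, M ∈ Mcls γ s ∧ M.1 ≤ S.1 ∧ S.2 ≤ M.2 := by
    intro M hM
    rw [hA, Finset.mem_filter, mem_Sub] at hM
    exact ⟨hM.1, hM.2.1, hM.2.2.2⟩
  have hpos : ∀ M ∈ A, 0 < (Iv (M.1, S.1)).card := fun M hM =>
    card_Iv_pos (M.1, S.1) (hmem M hM).2.1
  have hle : ∀ M ∈ A, ν M + 1 ≤ (Iv M).card := by
    intro M hM
    have h1 := hpos M hM
    have h2 : (Iv (M.1, S.1)).card ≤ (Iv M).card := by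
      apply Finset.card_le_card
      intro x hx
      rw [mem_Iv] at *
      exact ⟨hx.1, hx.2.trans (hS.trans (hmem M hM).2.2)⟩
    simp only [hν]
    omega
  have hfst : ∀ M ∈ A, ∀ M' ∈ A, M.1 < M'.1 →
      (Iv (M'.1, S.1)).card < (Iv (M.1, S.1)).card := by
    intro M hM M' hM' hlt
    apply Finset.card_lt_card
    refine ⟨?_, fun h => ?_⟩
    · intro x hx
      rw [mem_Iv] at *
      exact ⟨hlt.le.trans hx.1, hx.2⟩
    · have := h ((mem_Iv (M.1, S.1) M.1).mpr ⟨le_rfl, (hmem M hM).2.1⟩)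
      rw [mem_Iv] at this
      exact absurd this.1 (not_le.mpr hlt)
  have hsnd : ∀ M ∈ A, ∀ M' ∈ A, M.1 = M'.1 → M.2 ≤ M'.2 → M = M' := by
    intro M hM M' hM' h1 h2
    by_contra hne
    have hMc := (mem_Mcls γ s M).mp (hmem M hM).1
    have hMc' := (mem_Mcls γ s M').mp (hmem M' hM').1
    have hsub : M ∈ Sub M' := (mem_Sub M' M).mpr ⟨h1.ge, hMc.1, h2⟩
    have := hMc'.2.2.2 M hsub hne
    linarith [hMc.2.1]
  have hinj : Set.InjOn ν (A : Set (X × X)) := by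
    intro M hM M' hM' hνeq
    rw [Finset.mem_coe] at hM hM'
    have h1 := hpos M hM
    have h2 := hpos M' hM'
    have hc : (Iv (M.1, S.1)).card = (Iv (M'.1, S.1)).card := by
      simp only [hν] at hνeq
      omega
    have hfe : M.1 = M'.1 := by
      rcases lt_trichotomy M.1 M'.1 with h | h | h
      · have := hfst M hM M' hM' h
        omega
      · exact h
      · have := hfst M' hM' M hM h
        omega
    rcases le_total M.2 M'.2 with h | h
    · exact hsnd M hM M' hM' hfe h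
    · exact (hsnd M' hM' M hM hfe.symm h).symm
  calc ∑ M ∈ A, (1 / 50 : ℝ) ^ (Iv M).card ≤ ∑ M ∈ A, (1 / 50 : ℝ) ^ (ν M + 1) := by
        apply Finset.sum_le_sum
        intro M hM
        exact pow_le_pow_of_le_one (by norm_num) (by norm_num) (hle M hM)
    _ = ∑ j ∈ A.image ν, (1 / 50 : ℝ) ^ (j + 1) :=
        (Finset.sum_image (f := fun j => (1 / 50 : ℝ) ^ (j + 1)) hinj).symm
    _ ≤ (1 / 50) / (1 - 1 / 50) := geom_bound (1 / 50) (by norm_num) (by norm_num) _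
    _ = 1 / 49 := by norm_num

/-- Cauchy-Schwarz for one minimal heavy interval. -/
theorem heavy_point (γ : X × X → ℝ) (p : ℝ) (hp0 : 0 ≤ p) (hp1 : p ≤ 1)
    (s : ℕ) (M : X × X) (hM : M ∈ Mcls γ s) :
    (p / 2500) ^ (Iv M).card ≤ 8 / 25 * (4 : ℝ) ^ s * ((1 / 50 : ℝ) ^ (Iv M).card *
      ∑ S ∈ Sub M, γ S ^ 2 * p ^ (Iv S).card) := by
  rw [mem_Mcls] at hM
  obtain ⟨hM1, hM2, -, -⟩ := hM
  have hn1 : 1 ≤ (Iv M).card := card_Iv_pos M hM1
  have hcs : (∑ S ∈ Sub M, γ S) ^ 2 ≤ ((Sub M).card : ℝ) * ∑ S ∈ Sub M, γ S ^ 2 :=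
    sq_sum_le_card_mul_sum_sq
  have hcard : ((Sub M).card : ℝ) ≤ ((Iv M).card : ℝ) ^ 2 := by
    have := card_Sub_le M
    exact_mod_cast this
  have hQ0 : 0 ≤ ∑ S ∈ Sub M, γ S ^ 2 := Finset.sum_nonneg (fun S _ => sq_nonneg _)
  have hG : ((1 / 2 : ℝ) ^ (s + 2)) ^ 2 ≤ ((Iv M).card : ℝ) ^ 2 * ∑ S ∈ Sub M, γ S ^ 2 := by
    calc ((1 / 2 : ℝ) ^ (s + 2)) ^ 2 ≤ (Gw γ M) ^ 2 := pow_le_pow_left₀ (by positivity) hM2 2
      _ ≤ ((Sub M).card : ℝ) * ∑ S ∈ Sub M, γ S ^ 2 := hcs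
      _ ≤ ((Iv M).card : ℝ) ^ 2 * ∑ S ∈ Sub M, γ S ^ 2 := mul_le_mul_of_nonneg_right hcard hQ0
  have e2 : 16 * (4 : ℝ) ^ s * ((1 / 2 : ℝ) ^ (s + 2)) ^ 2 = 1 := by
    have e4 : (4 : ℝ) ^ s * ((1 / 2 : ℝ) ^ s) ^ 2 = 1 := by
      rw [← pow_mul, mul_comm s 2, pow_mul, ← mul_pow]
      norm_num
    rw [pow_add, mul_pow]
    linear_combination (16 * ((1 / 2 : ℝ) ^ 2) ^ 2) * e4
  have h16 : (1 : ℝ) ≤ 16 * (4 : ℝ) ^ s *
      (((Iv M).card : ℝ) ^ 2 * ∑ S ∈ Sub M, γ S ^ 2) := by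
    rw [← e2]
    exact mul_le_mul_of_nonneg_left hG (by positivity)
  have hQp : p ^ (Iv M).card * ∑ S ∈ Sub M, γ S ^ 2
      ≤ ∑ S ∈ Sub M, γ S ^ 2 * p ^ (Iv S).card := by
    rw [Finset.mul_sum]
    apply Finset.sum_le_sum
    intro S hS
    rw [mul_comm]
    exact mul_le_mul_of_nonneg_left
      (pow_le_pow_of_le_one hp0 hp1 (Finset.card_le_card (Iv_subset hS))) (sq_nonneg _)
  have hsq := sq_mul_pow_le (Iv M).card hn1
  have e : (p / 2500) ^ (Iv M).card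
      = p ^ (Iv M).card * (1 / 50 : ℝ) ^ (Iv M).card * (1 / 50 : ℝ) ^ (Iv M).card := by
    rw [← mul_pow, ← mul_pow]
    congr 1
    ring
  have hL0 : (0 : ℝ) ≤ (1 / 50 : ℝ) ^ (Iv M).card := by positivity
  have hpn0 : 0 ≤ p ^ (Iv M).card := pow_nonneg hp0 _
  calc (p / 2500) ^ (Iv M).card
      = p ^ (Iv M).card * (1 / 50 : ℝ) ^ (Iv M).card * (1 / 50 : ℝ) ^ (Iv M).card := e
    _ ≤ p ^ (Iv M).card * (1 / 50 : ℝ) ^ (Iv M).card * (1 / 50 : ℝ) ^ (Iv M).card *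
          (16 * (4 : ℝ) ^ s * (((Iv M).card : ℝ) ^ 2 * ∑ S ∈ Sub M, γ S ^ 2)) :=
        le_mul_of_one_le_right (mul_nonneg (mul_nonneg hpn0 hL0) hL0) h16
    _ = 16 * (4 : ℝ) ^ s * (1 / 50 : ℝ) ^ (Iv M).card *
          ((((Iv M).card : ℝ) ^ 2 * (1 / 50 : ℝ) ^ (Iv M).card) *
            (p ^ (Iv M).card * ∑ S ∈ Sub M, γ S ^ 2)) := by ring
    _ ≤ 16 * (4 : ℝ) ^ s * (1 / 50 : ℝ) ^ (Iv M).card *
          ((1 / 50) * ∑ S ∈ Sub M, γ S ^ 2 * p ^ (Iv S).card) := by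
        apply mul_le_mul_of_nonneg_left _ (by positivity)
        exact mul_le_mul hsq hQp (mul_nonneg hpn0 hQ0) (by norm_num)
    _ = 8 / 25 * (4 : ℝ) ^ s * ((1 / 50 : ℝ) ^ (Iv M).card *
          ∑ S ∈ Sub M, γ S ^ 2 * p ^ (Iv S).card) := by ring

/-- The total cost of the minimal heavy intervals of class `s` is controlled by the part of
the cost of the fractional cover attributed to that class. -/
theorem class_budget (γ : X × X → ℝ) (p : ℝ) (hp0 : 0 ≤ p) (hp1 : p ≤ 1) (s : ℕ) :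
    ∑ M ∈ Mcls γ s, (p / 2500) ^ (Iv M).card ≤ 8 / 1225 * ((2 : ℝ) ^ s * fcls γ p s) := by
  classical
  have hw0 : ∀ S : X × X, 0 ≤ γ S ^ 2 * p ^ (Iv S).card := fun S =>
    mul_nonneg (sq_nonneg _) (pow_nonneg hp0 _)
  have h1 : ∑ M ∈ Mcls γ s, (p / 2500) ^ (Iv M).card
      ≤ ∑ M ∈ Mcls γ s, 8 / 25 * (4 : ℝ) ^ s * ((1 / 50 : ℝ) ^ (Iv M).card *
          ∑ S ∈ Sub M, γ S ^ 2 * p ^ (Iv S).card) :=
    Finset.sum_le_sum (fun M hM => heavy_point γ p hp0 hp1 s M hM)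
  have h2 : ∑ M ∈ Mcls γ s, (1 / 50 : ℝ) ^ (Iv M).card *
        ∑ S ∈ Sub M, γ S ^ 2 * p ^ (Iv S).card
      = ∑ S : X × X, γ S ^ 2 * p ^ (Iv S).card *
          ∑ M ∈ (Mcls γ s).filter (fun M => S ∈ Sub M), (1 / 50 : ℝ) ^ (Iv M).card := by
    simp only [Finset.mul_sum]
    rw [Finset.sum_comm' (s' := fun S => (Mcls γ s).filter (fun M => S ∈ Sub M))
      (t' := Finset.univ)]
    · apply Finset.sum_congr rfl
      intro S _
      apply Finset.sum_congr rfl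
      intro M _
      ring
    · intro M S
      simp only [Finset.mem_filter, Finset.mem_univ, and_true]
  have h3 : ∀ S : X × X, γ S ^ 2 * p ^ (Iv S).card *
        ∑ M ∈ (Mcls γ s).filter (fun M => S ∈ Sub M), (1 / 50 : ℝ) ^ (Iv M).card
      ≤ if S.1 ≤ S.2 then
          1 / 49 * (if (2 : ℝ) ^ s * γ S ≤ 1 then γ S ^ 2 * p ^ (Iv S).card else 0)
        else 0 := by
    intro S
    by_cases hS : S.1 ≤ S.2
    · rw [if_pos hS]
      by_cases hsm : (2 : ℝ) ^ s * γ S ≤ 1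
      · rw [if_pos hsm]
        have := antichain_sum γ s S hS
        calc γ S ^ 2 * p ^ (Iv S).card *
              ∑ M ∈ (Mcls γ s).filter (fun M => S ∈ Sub M), (1 / 50 : ℝ) ^ (Iv M).card
            ≤ γ S ^ 2 * p ^ (Iv S).card * (1 / 49) := mul_le_mul_of_nonneg_left this (hw0 S)
          _ = 1 / 49 * (γ S ^ 2 * p ^ (Iv S).card) := by ring
      · rw [if_neg hsm]
        have hempty : (Mcls γ s).filter (fun M => S ∈ Sub M) = ∅ := by
          rw [Finset.filter_eq_empty_iff]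
          intro M hM hSM
          exact hsm (((mem_Mcls γ s M).mp hM).2.2.1 S hSM)
        rw [hempty]
        simp
    · rw [if_neg hS]
      have hempty : (Mcls γ s).filter (fun M => S ∈ Sub M) = ∅ := by
        rw [Finset.filter_eq_empty_iff]
        intro M _ hSM
        exact hS ((mem_Sub M S).mp hSM).2.1
      rw [hempty]
      simp
  have h4 : ∑ S : X × X, (if S.1 ≤ S.2 then
        1 / 49 * (if (2 : ℝ) ^ s * γ S ≤ 1 then γ S ^ 2 * p ^ (Iv S).card else 0) else 0)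
      = ∑ S ∈ Finset.univ.filter (fun S : X × X => S.1 ≤ S.2),
          1 / 49 * (if (2 : ℝ) ^ s * γ S ≤ 1 then γ S ^ 2 * p ^ (Iv S).card else 0) :=
    (Finset.sum_filter _ _).symm
  have h5 : (4 : ℝ) ^ s * ∑ S ∈ Finset.univ.filter (fun S : X × X => S.1 ≤ S.2),
        1 / 49 * (if (2 : ℝ) ^ s * γ S ≤ 1 then γ S ^ 2 * p ^ (Iv S).card else 0)
      = 1 / 49 * ((2 : ℝ) ^ s * fcls γ p s) := by
    rw [fcls, Finset.mul_sum, Finset.mul_sum, Finset.mul_sum]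
    apply Finset.sum_congr rfl
    intro S _
    have e4 : (4 : ℝ) ^ s = (2 : ℝ) ^ s * (2 : ℝ) ^ s := by
      rw [← mul_pow]
      norm_num
    split_ifs
    · rw [e4]
      ring
    · simp
  calc ∑ M ∈ Mcls γ s, (p / 2500) ^ (Iv M).card
      ≤ ∑ M ∈ Mcls γ s, 8 / 25 * (4 : ℝ) ^ s * ((1 / 50 : ℝ) ^ (Iv M).card *
          ∑ S ∈ Sub M, γ S ^ 2 * p ^ (Iv S).card) := h1
    _ = 8 / 25 * (4 : ℝ) ^ s * ∑ M ∈ Mcls γ s, (1 / 50 : ℝ) ^ (Iv M).card *
          ∑ S ∈ Sub M, γ S ^ 2 * p ^ (Iv S).card := by rw [Finset.mul_sum]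
    _ = 8 / 25 * (4 : ℝ) ^ s * ∑ S : X × X, γ S ^ 2 * p ^ (Iv S).card *
          ∑ M ∈ (Mcls γ s).filter (fun M => S ∈ Sub M), (1 / 50 : ℝ) ^ (Iv M).card := by
        rw [h2]
    _ ≤ 8 / 25 * (4 : ℝ) ^ s * ∑ S : X × X, (if S.1 ≤ S.2 then
          1 / 49 * (if (2 : ℝ) ^ s * γ S ≤ 1 then γ S ^ 2 * p ^ (Iv S).card else 0) else 0) :=
        mul_le_mul_of_nonneg_left (Finset.sum_le_sum (fun S _ => h3 S)) (by positivity)
    _ = 8 / 25 * ((4 : ℝ) ^ s * ∑ S ∈ Finset.univ.filter (fun S : X × X => S.1 ≤ S.2),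
          1 / 49 * (if (2 : ℝ) ^ s * γ S ≤ 1 then γ S ^ 2 * p ^ (Iv S).card else 0)) := by
        rw [h4]
        ring
    _ = 8 / 1225 * ((2 : ℝ) ^ s * fcls γ p s) := by
        rw [h5]
        ring

open scoped Classical in
/-- The families of `k` minimal heavy intervals of class `s` that are pairwise disjoint. -/
def PDfam (γ : X × X → ℝ) (s k : ℕ) : Finset (Finset (X × X)) :=
  ((Mcls γ s).powersetCard k).filter (fun J => (J : Set (X × X)).PairwiseDisjoint Iv)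

theorem mem_PDfam (γ : X × X → ℝ) (s k : ℕ) (J : Finset (X × X)) :
    J ∈ PDfam γ s k ↔ J ⊆ Mcls γ s ∧ J.card = k ∧ (J : Set (X × X)).PairwiseDisjoint Iv := by
  simp only [PDfam, Finset.mem_filter, Finset.mem_powersetCard, and_assoc]

/-- The cost of one class of the cover. -/
theorem class_cost2 (γ : X × X → ℝ) (hγ0 : ∀ S, 0 ≤ γ S) (p : ℝ) (hp0 : 0 ≤ p) (hp1 : p ≤ 1)
    (s k : ℕ) (hk : k = ⌊(2 : ℝ) ^ s * fcls γ p s / 4⌋₊ + s / 2 + 1) :
    ∑ J ∈ PDfam γ s k, (p / 2500) ^ (J.biUnion Iv).card ≤ (1 / 3 : ℝ) ^ (s + 1) := by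
  classical
  have hb0 : ∀ M : X × X, 0 ≤ (p / 2500) ^ (Iv M).card := fun M => by positivity
  have step1 : ∑ J ∈ PDfam γ s k, (p / 2500) ^ (J.biUnion Iv).card
      ≤ ∑ J ∈ (Mcls γ s).powersetCard k, ∏ M ∈ J, (p / 2500) ^ (Iv M).card := by
    have e : ∀ J ∈ PDfam γ s k,
        (p / 2500) ^ (J.biUnion Iv).card = ∏ M ∈ J, (p / 2500) ^ (Iv M).card := by
      intro J hJ
      rw [mem_PDfam] at hJ
      rw [Finset.card_biUnion hJ.2.2, ← Finset.prod_pow_eq_pow_sum]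
    rw [Finset.sum_congr rfl e]
    apply Finset.sum_le_sum_of_subset_of_nonneg
    · intro J hJ
      rw [mem_PDfam] at hJ
      exact Finset.mem_powersetCard.mpr ⟨hJ.1, hJ.2.1⟩
    · intro J _ _
      exact Finset.prod_nonneg (fun M _ => hb0 M)
  have step2 := esymm_le (fun M : X × X => (p / 2500) ^ (Iv M).card) hb0 (Mcls γ s) k
  have hf0 : 0 ≤ fcls γ p s := fcls_nonneg γ hγ0 p hp0 s
  have hA0 : 0 ≤ ∑ M ∈ Mcls γ s, (p / 2500) ^ (Iv M).card :=
    Finset.sum_nonneg (fun M _ => hb0 M)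
  have step3 : ∑ M ∈ Mcls γ s, (p / 2500) ^ (Iv M).card ≤ 32 / 1225 * (k : ℝ) := by
    have h1 := class_budget γ p hp0 hp1 s
    have h6 : (2 : ℝ) ^ s * fcls γ p s / 4 < ⌊(2 : ℝ) ^ s * fcls γ p s / 4⌋₊ + 1 :=
      Nat.lt_floor_add_one _
    have h7 : ((⌊(2 : ℝ) ^ s * fcls γ p s / 4⌋₊ : ℝ) + 1) ≤ (k : ℝ) := by
      have : ⌊(2 : ℝ) ^ s * fcls γ p s / 4⌋₊ + 1 ≤ k := by omega
      exact_mod_cast this
    linarith
  have hkpos : (0 : ℝ) < (k.factorial : ℝ) := by positivity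
  have hk2 : s + 1 ≤ 2 * k := by omega
  have step4 : (∑ M ∈ Mcls γ s, (p / 2500) ^ (Iv M).card) ^ k / (k.factorial : ℝ)
      ≤ (1 / 9 : ℝ) ^ k := by
    have h1 : (∑ M ∈ Mcls γ s, (p / 2500) ^ (Iv M).card) ^ k ≤ (32 / 1225 * (k : ℝ)) ^ k :=
      pow_le_pow_left₀ hA0 step3 k
    have h2 : (k : ℝ) ^ k / (k.factorial : ℝ) ≤ Real.exp k :=
      Real.pow_div_factorial_le_exp (k : ℝ) (Nat.cast_nonneg k) k
    have h3 : Real.exp (k : ℝ) = Real.exp 1 ^ k := by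
      have := Real.exp_nat_mul 1 k
      rwa [mul_one] at this
    have h4 : Real.exp 1 ≤ 2.72 := by
      have := Real.exp_one_lt_d9
      linarith
    have h5 : (32 / 1225 * (k : ℝ)) ^ k / (k.factorial : ℝ)
        = (32 / 1225 : ℝ) ^ k * ((k : ℝ) ^ k / (k.factorial : ℝ)) := by
      rw [mul_pow]
      ring
    calc (∑ M ∈ Mcls γ s, (p / 2500) ^ (Iv M).card) ^ k / (k.factorial : ℝ)
        ≤ (32 / 1225 * (k : ℝ)) ^ k / (k.factorial : ℝ) :=
          div_le_div_of_nonneg_right h1 hkpos.le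
      _ = (32 / 1225 : ℝ) ^ k * ((k : ℝ) ^ k / (k.factorial : ℝ)) := h5
      _ ≤ (32 / 1225 : ℝ) ^ k * Real.exp 1 ^ k := by
          rw [← h3]
          exact mul_le_mul_of_nonneg_left h2 (by positivity)
      _ = (32 / 1225 * Real.exp 1) ^ k := by rw [mul_pow]
      _ ≤ (1 / 9 : ℝ) ^ k := by
          apply pow_le_pow_left₀ (by positivity)
          have : (0 : ℝ) < Real.exp 1 := Real.exp_pos 1
          linarith
  have e9 : (1 / 9 : ℝ) ^ k = (1 / 3 : ℝ) ^ (2 * k) := by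
    rw [pow_mul]
    norm_num
  calc ∑ J ∈ PDfam γ s k, (p / 2500) ^ (J.biUnion Iv).card
      ≤ ∑ J ∈ (Mcls γ s).powersetCard k, ∏ M ∈ J, (p / 2500) ^ (Iv M).card := step1
    _ ≤ (∑ M ∈ Mcls γ s, (p / 2500) ^ (Iv M).card) ^ k / (k.factorial : ℝ) := step2
    _ ≤ (1 / 9 : ℝ) ^ k := step4
    _ = (1 / 3 : ℝ) ^ (2 * k) := e9
    _ ≤ (1 / 3 : ℝ) ^ (s + 1) := pow_le_pow_of_le_one (by norm_num) (by norm_num) hk2

/-- Inside every run, the minimal heavy intervals of the class of the run are found. -/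
theorem exists_rep (γ : X × X → ℝ) (R : X × X) (hR : R.1 ≤ R.2) (s : ℕ)
    (hlow : (1 / 2 : ℝ) ^ (s + 2) ≤ Gw γ R)
    (hsmall : ∀ S ∈ Sub R, (2 : ℝ) ^ s * γ S ≤ 1) :
    ∃ M ∈ Mcls γ s, M ∈ Sub R := by
  classical
  have hne : ((Sub R).filter (fun M => (1 / 2 : ℝ) ^ (s + 2) ≤ Gw γ M)).Nonempty :=
    ⟨R, Finset.mem_filter.mpr ⟨self_mem_Sub R hR, hlow⟩⟩
  obtain ⟨M, hM, hMmin⟩ := Finset.exists_min_image _ (fun M => (Iv M).card) hne
  rw [Finset.mem_filter] at hM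
  refine ⟨M, ?_, hM.1⟩
  rw [mem_Mcls]
  refine ⟨((mem_Sub R M).mp hM.1).2.1, hM.2, fun S hS => hsmall S (Sub_trans hM.1 hS), ?_⟩
  intro M' hM' hne'
  by_contra hcon
  rw [not_lt] at hcon
  have h1 := hMmin M' (Finset.mem_filter.mpr ⟨Sub_trans hM.1 hM', hcon⟩)
  have h2 := card_Iv_lt hM' hne'
  omega

/-- The mass of a fractional cover with interval support inside a set `H`. -/
theorem interval_mass (g : Finset X → ℝ) (hg0 : ∀ S, 0 ≤ g S)
    (hint : ∀ S, g S ≠ 0 → ∃ a b, ∀ x, x ∈ S ↔ a ≤ x ∧ x ≤ b)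
    (γ : X × X → ℝ) (hγ : ∀ q, γ q = g (Iv q)) (H : Finset X) :
    ∑ S ∈ H.powerset, g S
      ≤ g ∅ + ∑ q ∈ Finset.univ.filter (fun q : X × X => q.1 ≤ q.2 ∧ Iv q ⊆ H), γ q := by
  classical
  rw [Finset.sum_congr rfl (fun q _ => hγ q)]
  set PH : Finset (X × X) := Finset.univ.filter (fun q : X × X => q.1 ≤ q.2 ∧ Iv q ⊆ H) with hPH
  set I : Finset (Finset X) := PH.image Iv with hI
  rw [← Finset.sum_filter_add_sum_filter_not H.powerset (fun S => S ∈ I)]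
  have e1 : H.powerset.filter (fun S => S ∈ I) = I := by
    ext S
    simp only [Finset.mem_filter, Finset.mem_powerset]
    constructor
    · exact fun h => h.2
    · intro h
      refine ⟨?_, h⟩
      rw [hI, Finset.mem_image] at h
      obtain ⟨q, hq, rfl⟩ := h
      rw [hPH, Finset.mem_filter] at hq
      exact hq.2.2
  rw [e1, add_comm]
  refine add_le_add ?_ ?_
  · calc ∑ S ∈ H.powerset.filter (fun S => S ∉ I), g S
        ≤ ∑ S ∈ H.powerset.filter (fun S => S ∉ I), (if S = ∅ then g ∅ else 0) := by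
          apply Finset.sum_le_sum
          intro S hS
          rw [Finset.mem_filter, Finset.mem_powerset] at hS
          by_cases hSe : S = ∅
          · simp [hSe]
          · simp only [hSe, if_false]
            have : g S = 0 := by
              by_contra hne
              apply hS.2
              obtain ⟨a, b, hab⟩ := hint S hne
              obtain ⟨x, hx⟩ := Finset.nonempty_iff_ne_empty.mpr hSe
              have hxab := (hab x).mp hx
              have hSeq : S = Iv (a, b) := by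
                ext y
                rw [mem_Iv]
                exact hab y
              rw [hI, Finset.mem_image]
              refine ⟨(a, b), ?_, hSeq.symm⟩
              rw [hPH, Finset.mem_filter]
              refine ⟨Finset.mem_univ _, hxab.1.trans hxab.2, ?_⟩
              rw [← hSeq]
              exact hS.1
            rw [this]
      _ ≤ g ∅ := by
          rw [Finset.sum_ite_eq']
          split_ifs
          · exact le_refl _
          · exact hg0 ∅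
  · rw [hI]
    exact Finset.sum_image_le_of_nonneg (fun S _ => hg0 S)

/-- The cost of a fractional cover with interval support, read on pairs of endpoints. -/
theorem pair_cost (g : Finset X → ℝ) (hg0 : ∀ S, 0 ≤ g S) (p : ℝ) (hp0 : 0 ≤ p)
    (γ : X × X → ℝ) (hγ : ∀ q, γ q = g (Iv q)) :
    ∑ q ∈ Finset.univ.filter (fun q : X × X => q.1 ≤ q.2), γ q * p ^ (Iv q).card
      ≤ ∑ S : Finset X, g S * p ^ S.card := by
  classical
  rw [Finset.sum_congr rfl (fun q _ => by rw [hγ q])]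
  have hinj : Set.InjOn (Iv : X × X → Finset X)
      (Finset.univ.filter (fun q : X × X => q.1 ≤ q.2) : Set (X × X)) := by
    intro q hq q' hq' h
    rw [Finset.mem_coe, Finset.mem_filter] at hq hq'
    exact Iv_inj hq.2 hq'.2 h
  rw [← Finset.sum_image (f := fun S : Finset X => g S * p ^ S.card) hinj]
  exact Finset.sum_le_sum_of_subset_of_nonneg (Finset.subset_univ _)
    (fun S _ _ => mul_nonneg (hg0 S) (pow_nonneg hp0 _))

/-- The runs of `H`: pairwise disjoint maximal intervals inside `H` of positive weight, which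
carry the whole weight of the intervals inside `H`. -/
theorem runs_exist (γ : X × X → ℝ) (hγ0 : ∀ S, 0 ≤ γ S) (H : Finset X) :
    ∃ R : Finset (X × X), (∀ M ∈ R, M.1 ≤ M.2 ∧ Iv M ⊆ H ∧ 0 < Gw γ M) ∧
      (∀ M ∈ R, ∀ M' ∈ R, M ≠ M' → Disjoint (Iv M) (Iv M')) ∧
      ∑ S ∈ Finset.univ.filter (fun S : X × X => S.1 ≤ S.2 ∧ Iv S ⊆ H), γ S
        ≤ ∑ M ∈ R, Gw γ M := by
  classical
  set PH : Finset (X × X) := Finset.univ.filter (fun S : X × X => S.1 ≤ S.2 ∧ Iv S ⊆ H)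
    with hPH
  have hPHmem : ∀ S, S ∈ PH ↔ (S.1 ≤ S.2 ∧ Iv S ⊆ H) := by
    intro S
    rw [hPH, Finset.mem_filter]
    simp
  set Rm : Finset (X × X) := PH.filter (fun M => ∀ T ∈ PH, M ∈ Sub T → T = M) with hRm
  set R : Finset (X × X) := Rm.filter (fun M => 0 < Gw γ M) with hR
  have hRmmem : ∀ M ∈ Rm, M ∈ PH ∧ ∀ T ∈ PH, M ∈ Sub T → T = M :=
    fun M hM => Finset.mem_filter.mp hM
  have htop : ∀ S : X × X, ∃ T, S ∈ PH → (T ∈ Rm ∧ S ∈ Sub T) := by
    intro S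
    by_cases h : S ∈ PH
    · have hne : (PH.filter (fun T => S ∈ Sub T)).Nonempty :=
        ⟨S, Finset.mem_filter.mpr ⟨h, self_mem_Sub S ((hPHmem S).mp h).1⟩⟩
      obtain ⟨T, hT, hTmax⟩ := Finset.exists_max_image _ (fun T => (Iv T).card) hne
      rw [Finset.mem_filter] at hT
      refine ⟨T, fun _ => ⟨?_, hT.2⟩⟩
      rw [hRm, Finset.mem_filter]
      refine ⟨hT.1, fun T' hT' hTT' => ?_⟩
      by_contra hne'
      have h1 := card_Iv_lt hTT' (Ne.symm hne')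
      have h2 := hTmax T' (Finset.mem_filter.mpr ⟨hT', Sub_trans hTT' hT.2⟩)
      omega
    · exact ⟨S, fun h' => absurd h' h⟩
  choose top htopspec using htop
  refine ⟨R, ?_, ?_, ?_⟩
  · intro M hM
    rw [hR, Finset.mem_filter] at hM
    have h1 := (hPHmem M).mp (hRmmem M hM.1).1
    exact ⟨h1.1, h1.2, hM.2⟩
  · intro M hM M' hM' hne
    rw [hR, Finset.mem_filter] at hM hM'
    have hM1 := hRmmem M hM.1
    have hM1' := hRmmem M' hM'.1
    have hP := (hPHmem M).mp hM1.1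
    have hP' := (hPHmem M').mp hM1'.1
    rw [Finset.disjoint_left]
    intro x hx hx'
    rw [mem_Iv] at hx hx'
    apply hne
    have hTP : (min M.1 M'.1, max M.2 M'.2) ∈ PH := by
      rw [hPHmem]
      refine ⟨(min_le_left _ _).trans (hx.1.trans (hx.2.trans (le_max_left _ _))), ?_⟩
      intro y hy
      rw [mem_Iv] at hy
      simp only at hy
      rcases le_total y x with hyx | hxy
      · rcases le_total M.1 M'.1 with h | h
        · rw [min_eq_left h] at hy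
          exact hP.2 ((mem_Iv M y).mpr ⟨hy.1, hyx.trans hx.2⟩)
        · rw [min_eq_right h] at hy
          exact hP'.2 ((mem_Iv M' y).mpr ⟨hy.1, hyx.trans hx'.2⟩)
      · rcases le_total M.2 M'.2 with h | h
        · rw [max_eq_right h] at hy
          exact hP'.2 ((mem_Iv M' y).mpr ⟨hx'.1.trans hxy, hy.2⟩)
        · rw [max_eq_left h] at hy
          exact hP.2 ((mem_Iv M y).mpr ⟨hx.1.trans hxy, hy.2⟩)
    have e1 : (min M.1 M'.1, max M.2 M'.2) = M :=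
      hM1.2 _ hTP ((mem_Sub _ M).mpr ⟨min_le_left _ _, hP.1, le_max_left _ _⟩)
    have e2 : (min M.1 M'.1, max M.2 M'.2) = M' :=
      hM1'.2 _ hTP ((mem_Sub _ M').mpr ⟨min_le_right _ _, hP'.1, le_max_right _ _⟩)
    exact e1.symm.trans e2
  · have e0 : ∑ S ∈ PH.filter (fun S => 0 < γ S), γ S = ∑ S ∈ PH, γ S := by
      apply Finset.sum_filter_of_ne
      intro S _ hne
      exact lt_of_le_of_ne (hγ0 S) (Ne.symm hne)
    have hmaps : ∀ S ∈ PH.filter (fun S => 0 < γ S), top S ∈ R := by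
      intro S hS
      rw [Finset.mem_filter] at hS
      have h1 := htopspec S hS.1
      rw [hR, Finset.mem_filter]
      exact ⟨h1.1, lt_of_lt_of_le hS.2 (le_Gw γ hγ0 h1.2)⟩
    rw [← e0, ← Finset.sum_fiberwise_of_maps_to hmaps]
    apply Finset.sum_le_sum
    intro M _
    rw [Gw]
    apply Finset.sum_le_sum_of_subset_of_nonneg
    · intro S hS
      rw [Finset.mem_filter] at hS
      have h1 := htopspec S (Finset.mem_filter.mp hS.1).1
      rw [hS.2] at h1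
      exact h1.2
    · intro S _ _
      exact hγ0 S

end Pairs

/-- The core case: weights at most one. -/
theorem core (X : Type) [LinearOrder X] [Fintype X]
    (F : Finset (Finset X)) (g : Finset X → ℝ) (p : ℝ) (hp0 : 0 ≤ p) (hp1 : p ≤ 1)
    (hg0 : ∀ S, 0 ≤ g S) (hg1 : ∀ S, g S ≤ 1)
    (hcov : ∀ H ∈ F, 1 ≤ ∑ S ∈ H.powerset, g S)
    (hcost : ∑ S : Finset X, g S * p ^ S.card ≤ 1 / 2)
    (hint : ∀ S, g S ≠ 0 → ∃ a b, ∀ x, x ∈ S ↔ a ≤ x ∧ x ≤ b) :
    ∃ G : Finset (Finset X), (∀ H ∈ F, ∃ S ∈ G, S ⊆ H) ∧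
      ∑ S ∈ G, (p / 2500) ^ S.card ≤ 1 / 2 := by
  classical
  obtain ⟨γ, hγ⟩ : ∃ γ : X × X → ℝ, ∀ q, γ q = g (Iv q) := ⟨fun q => g (Iv q), fun _ => rfl⟩
  have hγ0 : ∀ S, 0 ≤ γ S := fun S => by
    rw [hγ]
    exact hg0 _
  have hγ1 : ∀ S, γ S ≤ 1 := fun S => by
    rw [hγ]
    exact hg1 _
  have hpc := (pair_cost g hg0 p hp0 γ hγ).trans hcost
  have hfsum : ∀ J : Finset ℕ, ∑ s ∈ J, fcls γ p s ≤ 1 := fcls_sum γ hγ0 p hp0 hpc
  have hclsex : ∀ R : X × X, ∃ j : ℕ, 0 < Gw γ R →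
      ((1 / 2 : ℝ) ^ (j + 1) < 2 * min (Gw γ R) (1 / 2) ∧
        2 * min (Gw γ R) (1 / 2) ≤ (1 / 2 : ℝ) ^ j) := by
    intro R
    by_cases h : 0 < Gw γ R
    · have h0 : 0 < 2 * min (Gw γ R) (1 / 2) := by
        have : 0 < min (Gw γ R) (1 / 2) := lt_min h (by norm_num)
        linarith
      have h1 : 2 * min (Gw γ R) (1 / 2) ≤ 1 := by
        have : min (Gw γ R) (1 / 2) ≤ 1 / 2 := min_le_right _ _
        linarith
      obtain ⟨j, hj⟩ := exists_class2 _ h0 h1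
      exact ⟨j, fun _ => hj⟩
    · exact ⟨0, fun h' => absurd h' h⟩
  choose cls hcls using hclsex
  obtain ⟨k, hk⟩ : ∃ k : ℕ → ℕ, ∀ s, k s = ⌊(2 : ℝ) ^ s * fcls γ p s / 4⌋₊ + s / 2 + 1 :=
    ⟨fun s => ⌊(2 : ℝ) ^ s * fcls γ p s / 4⌋₊ + s / 2 + 1, fun _ => rfl⟩
  set Jall : Finset ℕ := (Finset.univ.filter (fun R : X × X => 0 < Gw γ R)).image cls
    with hJall
  refine ⟨(Jall.sigma (fun s => PDfam γ s (k s))).image (fun x => x.2.biUnion Iv), ?_, ?_⟩
  · -- covering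
    intro H hH
    have hgempty : g ∅ ≤ 1 / 2 := by
      have h1 : g ∅ * p ^ (∅ : Finset X).card ≤ ∑ S : Finset X, g S * p ^ S.card :=
        Finset.single_le_sum (f := fun S => g S * p ^ S.card)
          (fun S _ => mul_nonneg (hg0 S) (by positivity)) (Finset.mem_univ ∅)
      simp only [Finset.card_empty, pow_zero, mul_one] at h1
      linarith
    have hm1 := hcov H hH
    have hm2 := interval_mass g hg0 hint γ hγ H
    obtain ⟨R, hRmem, hRdisj, hRsum⟩ := runs_exist γ hγ0 H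
    have hmass : 1 / 2 ≤ ∑ M ∈ R, Gw γ M := by linarith
    by_contra hcon
    have hcnt : ∀ s ∈ Jall, (R.filter (fun M => cls M = s)).card
        < ⌊(2 : ℝ) ^ s * fcls γ p s / 4⌋₊ + s / 2 + 1 := by
      intro s hs
      rw [← hk s]
      by_contra hge
      rw [not_lt] at hge
      obtain ⟨T, hTsub, hTcard⟩ := Finset.exists_subset_card_eq hge
      have hTmem : ∀ M ∈ T, M ∈ R ∧ cls M = s := fun M hM => Finset.mem_filter.mp (hTsub hM)
      have hrepex : ∀ M : X × X, ∃ M', M ∈ T → (M' ∈ Mcls γ s ∧ M' ∈ Sub M) := by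
        intro M
        by_cases hM : M ∈ T
        · obtain ⟨hMR, hMs⟩ := hTmem M hM
          obtain ⟨hM1, -, hM3⟩ := hRmem M hMR
          have hc := hcls M hM3
          rw [hMs] at hc
          have hmin1 : min (Gw γ M) (1 / 2) ≤ Gw γ M := min_le_left _ _
          have hlow : (1 / 2 : ℝ) ^ (s + 2) ≤ Gw γ M := by
            have : (1 / 2 : ℝ) ^ (s + 2) = (1 / 2 : ℝ) ^ (s + 1) / 2 := by
              rw [pow_succ]
              ring
            linarith [hc.1]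
          have hsmall : ∀ S ∈ Sub M, (2 : ℝ) ^ s * γ S ≤ 1 := by
            intro S hS
            have h1 := le_Gw γ hγ0 hS
            have h2 := hγ1 S
            have h3 : γ S ≤ 2 * min (Gw γ M) (1 / 2) := by
              rcases le_total (Gw γ M) (1 / 2) with h | h
              · rw [min_eq_left h]
                linarith [hγ0 S]
              · rw [min_eq_right h]
                linarith
            have h4 : γ S ≤ (1 / 2 : ℝ) ^ s := h3.trans hc.2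
            have h5 : (2 : ℝ) ^ s * (1 / 2 : ℝ) ^ s = 1 := by
              rw [← mul_pow]
              norm_num
            calc (2 : ℝ) ^ s * γ S ≤ (2 : ℝ) ^ s * (1 / 2 : ℝ) ^ s :=
                  mul_le_mul_of_nonneg_left h4 (by positivity)
              _ = 1 := h5
          obtain ⟨M', hM', hM'sub⟩ := exists_rep γ M hM1 s hlow hsmall
          exact ⟨M', fun _ => ⟨hM', hM'sub⟩⟩
        · exact ⟨M, fun h' => absurd h' hM⟩
      choose rep hrep using hrepex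
      have hrepne : ∀ M ∈ T, ∀ M' ∈ T, M ≠ M' → Disjoint (Iv (rep M)) (Iv (rep M')) := by
        intro M hM M' hM' hne
        exact Finset.disjoint_of_subset_left (Iv_subset (hrep M hM).2)
          (Finset.disjoint_of_subset_right (Iv_subset (hrep M' hM').2)
            (hRdisj M (hTmem M hM).1 M' (hTmem M' hM').1 hne))
      have hrepinj : Set.InjOn rep (T : Set (X × X)) := by
        intro M hM M' hM' heq
        rw [Finset.mem_coe] at hM hM'
        by_contra hne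
        have hd := hrepne M hM M' hM' hne
        rw [heq] at hd
        have hM1 := ((mem_Mcls γ s (rep M')).mp (hrep M' hM').1).1
        have hx : (rep M').1 ∈ Iv (rep M') := (mem_Iv _ _).mpr ⟨le_rfl, hM1⟩
        exact Finset.disjoint_left.mp hd hx hx
      apply hcon
      refine ⟨(T.image rep).biUnion Iv, ?_, ?_⟩
      · rw [Finset.mem_image]
        refine ⟨⟨s, T.image rep⟩, ?_, rfl⟩
        rw [Finset.mem_sigma]
        refine ⟨hs, ?_⟩
        rw [mem_PDfam]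
        refine ⟨?_, ?_, ?_⟩
        · intro M' hM'
          rw [Finset.mem_image] at hM'
          obtain ⟨M, hM, rfl⟩ := hM'
          exact (hrep M hM).1
        · rw [Finset.card_image_of_injOn hrepinj, hTcard]
        · intro A hA B hB hAB
          rw [Finset.mem_coe, Finset.mem_image] at hA hB
          obtain ⟨M, hM, rfl⟩ := hA
          obtain ⟨M', hM', rfl⟩ := hB
          have hne : M ≠ M' := fun h => hAB (by rw [h])
          exact hrepne M hM M' hM' hne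
      · apply Finset.biUnion_subset.mpr
        intro M' hM'
        rw [Finset.mem_image] at hM'
        obtain ⟨M, hM, rfl⟩ := hM'
        exact (Iv_subset (hrep M hM).2).trans (hRmem M (hTmem M hM).1).2.1
    have hMJ : ∀ M ∈ R, cls M ∈ Jall := by
      intro M hM
      rw [hJall]
      exact Finset.mem_image_of_mem cls
        (Finset.mem_filter.mpr ⟨Finset.mem_univ _, (hRmem M hM).2.2⟩)
    have h7 : ∑ M ∈ R, min (Gw γ M) (1 / 2) ≤ 1 / 3 + 1 / 8 := by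
      apply counting2 R cls Jall (fun s => fcls γ p s) (fun s => fcls_nonneg γ hγ0 p hp0 s)
        (hfsum Jall) hMJ hcnt
      intro M hM
      have hc := (hcls M (hRmem M hM).2.2).2
      rw [pow_succ]
      linarith
    have h8 : min (∑ M ∈ R, Gw γ M) (1 / 2) ≤ ∑ M ∈ R, min (Gw γ M) (1 / 2) :=
      sum_min_le R (Gw γ) (fun M _ => Gw_nonneg γ hγ0 M) (1 / 2) (by norm_num)
    have h9 : (1 / 2 : ℝ) ≤ min (∑ M ∈ R, Gw γ M) (1 / 2) := le_min hmass le_rfl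
    linarith
  · -- cost
    calc ∑ U ∈ (Jall.sigma (fun s => PDfam γ s (k s))).image (fun x => x.2.biUnion Iv),
          (p / 2500) ^ U.card
        ≤ ∑ x ∈ Jall.sigma (fun s => PDfam γ s (k s)), (p / 2500) ^ (x.2.biUnion Iv).card :=
          Finset.sum_image_le_of_nonneg (fun U _ => by positivity)
      _ = ∑ s ∈ Jall, ∑ J ∈ PDfam γ s (k s), (p / 2500) ^ (J.biUnion Iv).card :=
          Finset.sum_sigma _ _ _
      _ ≤ ∑ s ∈ Jall, (1 / 3 : ℝ) ^ (s + 1) :=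
          Finset.sum_le_sum (fun s _ => class_cost2 γ hγ0 p hp0 hp1 s (k s) (hk s))
      _ ≤ (1 / 3) / (1 - 1 / 3) := geom_bound (1 / 3) (by norm_num) (by norm_num) Jall
      _ = 1 / 2 := by norm_num

/-- Whenever a family `F` of subsets of a finite linearly ordered set has a fractional cover `g`
of cost at most `1/2` at `p ∈ [0,1]` whose support consists of intervals of the order (with
arbitrary overlaps), the family `F` has a cover of cost at most `1/2` at `p / 2500`. -/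
theorem result (X : Type) [LinearOrder X] [Fintype X]
    (F : Finset (Finset X)) (g : Finset X → ℝ) (p : ℝ) (hp0 : 0 ≤ p) (hp1 : p ≤ 1)
    (hg0 : ∀ S, 0 ≤ g S)
    (hcov : ∀ H ∈ F, 1 ≤ ∑ S ∈ H.powerset, g S)
    (hcost : ∑ S : Finset X, g S * p ^ S.card ≤ 1 / 2)
    (hint : ∀ S, g S ≠ 0 → ∃ a b, ∀ x, x ∈ S ↔ a ≤ x ∧ x ≤ b) :
    ∃ G : Finset (Finset X), (∀ H ∈ F, ∃ S ∈ G, S ⊆ H) ∧
      ∑ S ∈ G, (p / 2500) ^ S.card ≤ 1 / 2 := by
  apply core X F (fun S => min (g S) 1) p hp0 hp1 (fun S => le_min (hg0 S) zero_le_one)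
    (fun S => min_le_right _ _)
  · intro H hH
    have h1 := sum_min_le H.powerset g (fun S _ => hg0 S) 1 zero_le_one
    have h2 : (1 : ℝ) ≤ min (∑ S ∈ H.powerset, g S) 1 := le_min (hcov H hH) le_rfl
    linarith
  · refine le_trans (Finset.sum_le_sum (fun S _ => ?_)) hcost
    exact mul_le_mul_of_nonneg_right (min_le_left _ _) (pow_nonneg hp0 _)
  · intro S hS
    apply hint S
    intro h0
    apply hS
    rw [h0]
    exact min_eq_left zero_le_one

end Vale.Agent.Results.P034.IntervalSupport
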