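import Mathlib
import Vale.Agent.Results.P034.DisjointSupport

/-!
Talagrand's fractional versus integral expectation thresholds: the case of a fractional
cover whose support is a laminar family (any two sets of the support are nested or disjoint).
-/

namespace Vale.Agent.Results.P034.LaminarSupport

open Finset
open Vale.Agent.Results.P034.DisjointSupport

/-- In a laminar family of nonempty sets, the supersets of a fixed member form a chain, so
their costs are dominated by a geometric series. -/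
theorem chain_sum {X : Type} [Fintype X] [DecidableEq X] (D : Finset (Finset X))
    (hlam : ∀ S ∈ D, ∀ T ∈ D, S ⊆ T ∨ T ⊆ S ∨ Disjoint S T)
    (hne : ∀ S ∈ D, S.Nonempty) (p : ℝ) (hp0 : 0 ≤ p) (hp1 : p < 1)
    (S' : Finset X) (hS' : S' ∈ D) :
    ∑ S ∈ D.filter (fun S => S' ⊆ S), p ^ S.card ≤ p ^ S'.card / (1 - p) := by
  have hinj : Set.InjOn Finset.card (D.filter (fun S => S' ⊆ S) : Set (Finset X)) := by
    intro S hS T hT hc
    rw [Finset.mem_coe, Finset.mem_filter] at hS hT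
    have hnd : ¬ Disjoint S T := by
      obtain ⟨x, hx⟩ := hne S' hS'
      rw [Finset.not_disjoint_iff]
      exact ⟨x, hS.2 hx, hT.2 hx⟩
    rcases hlam S hS.1 T hT.1 with h | h | h
    · exact Finset.eq_of_subset_of_card_le h (le_of_eq hc.symm)
    · exact (Finset.eq_of_subset_of_card_le h (le_of_eq hc)).symm
    · exact absurd h hnd
  have e : ∑ S ∈ D.filter (fun S => S' ⊆ S), p ^ S.card
      = ∑ n ∈ (D.filter (fun S => S' ⊆ S)).image Finset.card, p ^ n :=
    (Finset.sum_image (f := fun n => p ^ n) hinj).symm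
  rw [e]
  have hsub : (D.filter (fun S => S' ⊆ S)).image Finset.card
      ⊆ Finset.Ico S'.card (Fintype.card X + 1) := by
    intro n hn
    rw [Finset.mem_image] at hn
    obtain ⟨S, hS, rfl⟩ := hn
    rw [Finset.mem_filter] at hS
    rw [Finset.mem_Ico]
    exact ⟨Finset.card_le_card hS.2, Nat.lt_succ_of_le (Finset.card_le_univ S)⟩
  calc ∑ n ∈ (D.filter (fun S => S' ⊆ S)).image Finset.card, p ^ n
      ≤ ∑ n ∈ Finset.Ico S'.card (Fintype.card X + 1), p ^ n :=
        Finset.sum_le_sum_of_subset_of_nonneg hsub (fun _ _ _ => by positivity)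
    _ ≤ p ^ S'.card / (1 - p) := geom_sum_Ico_le_of_lt_one hp0 hp1

theorem sum_min_one {ι : Type} (M : Finset ι) (a : ι → ℝ) (ha : ∀ i ∈ M, 0 ≤ a i) :
    min (∑ i ∈ M, a i) 1 ≤ ∑ i ∈ M, min (a i) 1 := by
  by_cases h : ∃ i ∈ M, 1 ≤ a i
  · obtain ⟨i, hi, hi1⟩ := h
    have h1 : min (a i) 1 ≤ ∑ i ∈ M, min (a i) 1 :=
      Finset.single_le_sum (f := fun i => min (a i) 1)
        (fun i hi => le_min (ha i hi) zero_le_one) hi
    rw [min_eq_right hi1] at h1
    exact (min_le_right _ _).trans h1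
  · simp only [not_exists, not_and, not_le] at h
    have : ∑ i ∈ M, min (a i) 1 = ∑ i ∈ M, a i :=
      Finset.sum_congr rfl (fun i hi => min_eq_left (h i hi).le)
    rw [this]
    exact min_le_left _ _


/-- Budget lemma: the total cost of the subtree weights is at most the cost of `g` times
`1 / (1 - p)`. -/
theorem budget {X : Type} [Fintype X] [DecidableEq X] (D : Finset (Finset X))
    (hlam : ∀ S ∈ D, ∀ T ∈ D, S ⊆ T ∨ T ⊆ S ∨ Disjoint S T)
    (hne : ∀ S ∈ D, S.Nonempty) (g : Finset X → ℝ) (hg0 : ∀ S, 0 ≤ g S)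
    (p : ℝ) (hp0 : 0 ≤ p) (hp1 : p < 1) :
    ∑ S ∈ D, (∑ S' ∈ D.filter (fun S' => S' ⊆ S), g S') * p ^ S.card
      ≤ (∑ S' ∈ D, g S' * p ^ S'.card) / (1 - p) := by
  have h3 : ∑ S ∈ D, (∑ S' ∈ D.filter (fun S' => S' ⊆ S), g S') * p ^ S.card
      = ∑ S' ∈ D, g S' * ∑ S ∈ D.filter (fun S => S' ⊆ S), p ^ S.card := by
    simp only [Finset.sum_mul, Finset.mul_sum]
    apply Finset.sum_comm'
    intro S S'
    simp only [Finset.mem_filter]
    tauto
  have h4 : ∀ S' ∈ D, g S' * ∑ S ∈ D.filter (fun S => S' ⊆ S), p ^ S.card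
      ≤ g S' * p ^ S'.card / (1 - p) := by
    intro S' hS'
    have := chain_sum D hlam hne p hp0 hp1 S' hS'
    calc g S' * ∑ S ∈ D.filter (fun S => S' ⊆ S), p ^ S.card
        ≤ g S' * (p ^ S'.card / (1 - p)) := mul_le_mul_of_nonneg_left this (hg0 S')
      _ = g S' * p ^ S'.card / (1 - p) := by ring
  rw [h3, Finset.sum_div]
  exact Finset.sum_le_sum h4

/-- Counting lemma: if every class `j` contains fewer than `1 + j + ⌊16^j W_j / 4⌋` members of
`M`, then the total weight of `M` is small. -/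
theorem counting {α : Type} [DecidableEq α] (M : Finset α) (cls : α → ℕ) (J : Finset ℕ)
    (W : ℕ → ℝ) (hW0 : ∀ j, 0 ≤ W j) (hMJ : ∀ S ∈ M, cls S ∈ J)
    (hcnt : ∀ j ∈ J, (M.filter (fun S => cls S = j)).card
      < 1 + j + ⌊(16 : ℝ) ^ j * W j / 4⌋₊)
    (gh : α → ℝ) (hgh : ∀ S ∈ M, gh S ≤ (1 / 16 : ℝ) ^ cls S) :
    ∑ S ∈ M, gh S ≤ 1 / 3 + (∑ j ∈ J, W j) / 4 := by
  have h3 : ∑ S ∈ M, gh S ≤ ∑ S ∈ M, (1 / 16 : ℝ) ^ cls S := Finset.sum_le_sum hgh
  have h4 : ∑ S ∈ M, (1 / 16 : ℝ) ^ cls S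
      = ∑ j ∈ J, ∑ S ∈ M.filter (fun S => cls S = j), (1 / 16 : ℝ) ^ cls S :=
    (Finset.sum_fiberwise_of_maps_to hMJ _).symm
  have h5 : ∀ j ∈ J, ∑ S ∈ M.filter (fun S => cls S = j), (1 / 16 : ℝ) ^ cls S
      ≤ (j : ℝ) * (1 / 16 : ℝ) ^ j + W j / 4 := by
    intro j hj
    have e : ∑ S ∈ M.filter (fun S => cls S = j), (1 / 16 : ℝ) ^ cls S
        = ((M.filter (fun S => cls S = j)).card : ℝ) * (1 / 16 : ℝ) ^ j := by
      rw [Finset.sum_congr rfl (fun S hS => by rw [(Finset.mem_filter.mp hS).2]),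
        Finset.sum_const, nsmul_eq_mul]
    rw [e]
    have hc := hcnt j hj
    have hnn : (0 : ℝ) ≤ (16 : ℝ) ^ j * W j / 4 :=
      div_nonneg (mul_nonneg (by positivity) (hW0 j)) (by norm_num)
    have hfl : (⌊(16 : ℝ) ^ j * W j / 4⌋₊ : ℝ) ≤ (16 : ℝ) ^ j * W j / 4 := Nat.floor_le hnn
    have hc' : ((M.filter (fun S => cls S = j)).card : ℝ)
        ≤ (j : ℝ) + ⌊(16 : ℝ) ^ j * W j / 4⌋₊ := by
      have : (M.filter (fun S => cls S = j)).card ≤ j + ⌊(16 : ℝ) ^ j * W j / 4⌋₊ := by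
        omega
      exact_mod_cast this
    have hpos : (0 : ℝ) ≤ (1 / 16 : ℝ) ^ j := by positivity
    have h16 : (16 : ℝ) ^ j * (1 / 16 : ℝ) ^ j = 1 := by
      rw [← mul_pow]
      norm_num
    calc ((M.filter (fun S => cls S = j)).card : ℝ) * (1 / 16 : ℝ) ^ j
        ≤ ((j : ℝ) + (16 : ℝ) ^ j * W j / 4) * (1 / 16 : ℝ) ^ j :=
          mul_le_mul_of_nonneg_right (by linarith) hpos
      _ = (j : ℝ) * (1 / 16 : ℝ) ^ j + W j / 4 := by
          linear_combination (W j / 4) * h16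
  have a1 : ∑ j ∈ J, (j : ℝ) * (1 / 16 : ℝ) ^ j ≤ 1 / 3 := by
    calc ∑ j ∈ J, (j : ℝ) * (1 / 16 : ℝ) ^ j ≤ ∑ j ∈ J, (1 / 4 : ℝ) ^ (j + 1) :=
          Finset.sum_le_sum (fun j _ => lin_bound j)
      _ ≤ (1 / 4) / (1 - 1 / 4) := geom_bound (1 / 4) (by norm_num) (by norm_num) J
      _ = 1 / 3 := by norm_num
  calc ∑ S ∈ M, gh S ≤ ∑ S ∈ M, (1 / 16 : ℝ) ^ cls S := h3
    _ = ∑ j ∈ J, ∑ S ∈ M.filter (fun S => cls S = j), (1 / 16 : ℝ) ^ cls S := h4
    _ ≤ ∑ j ∈ J, ((j : ℝ) * (1 / 16 : ℝ) ^ j + W j / 4) := Finset.sum_le_sum h5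
    _ = ∑ j ∈ J, (j : ℝ) * (1 / 16 : ℝ) ^ j + (∑ j ∈ J, W j) / 4 := by
        rw [Finset.sum_add_distrib, Finset.sum_div]
    _ ≤ 1 / 3 + (∑ j ∈ J, W j) / 4 := by linarith

/-- The core case `p ≤ 1/5`. -/
theorem core (X : Type) [Fintype X] [DecidableEq X]
    (F : Finset (Finset X)) (g : Finset X → ℝ) (p : ℝ)
    (hp0 : 0 ≤ p) (hp1 : p ≤ 1 / 5) (hg0 : ∀ S, 0 ≤ g S)
    (hcov : ∀ H ∈ F, 1 ≤ ∑ S ∈ H.powerset, g S)
    (hcost : ∑ S : Finset X, g S * p ^ S.card ≤ 1 / 2)
    (hlam : ∀ S T, g S ≠ 0 → g T ≠ 0 → S ⊆ T ∨ T ⊆ S ∨ Disjoint S T) :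
    ∃ G : Finset (Finset X), (∀ H ∈ F, ∃ S ∈ G, S ⊆ H) ∧
      ∑ S ∈ G, (p / 600) ^ S.card ≤ 1 / 2 := by
  classical
  set D : Finset (Finset X) := Finset.univ.filter (fun S => g S ≠ 0 ∧ S.Nonempty) with hD
  have hDmem : ∀ S ∈ D, g S ≠ 0 ∧ S.Nonempty := by
    intro S hS
    rw [hD, Finset.mem_filter] at hS
    exact hS.2
  have hDpos : ∀ S ∈ D, 0 < g S := fun S hS =>
    lt_of_le_of_ne (hg0 S) (Ne.symm (hDmem S hS).1)
  have hDlam : ∀ S ∈ D, ∀ T ∈ D, S ⊆ T ∨ T ⊆ S ∨ Disjoint S T :=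
    fun S hS T hT => hlam S T (hDmem S hS).1 (hDmem T hT).1
  set Gs : Finset X → ℝ := fun S => ∑ S' ∈ D.filter (fun S' => S' ⊆ S), g S' with hGs
  have hGs0 : ∀ S, 0 ≤ Gs S := fun S => Finset.sum_nonneg (fun T _ => hg0 T)
  have hGspos : ∀ S ∈ D, 0 < Gs S := by
    intro S hS
    have h1 : g S ≤ Gs S :=
      Finset.single_le_sum (f := g) (fun T _ => hg0 T)
        (Finset.mem_filter.mpr ⟨hS, Finset.Subset.refl S⟩)
    linarith [hDpos S hS]
  set gh : Finset X → ℝ := fun S => min (Gs S) 1 with hgh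
  have hgh0 : ∀ S, 0 ≤ gh S := fun S => le_min (hGs0 S) zero_le_one
  have hghpos : ∀ S ∈ D, 0 < gh S := fun S hS => lt_min (hGspos S hS) one_pos
  have hgh1 : ∀ S, gh S ≤ 1 := fun S => min_le_right _ _
  have hclsex : ∀ S : Finset X, ∃ j : ℕ,
      0 < gh S → ((1 / 16 : ℝ) ^ (j + 1) < gh S ∧ gh S ≤ (1 / 16 : ℝ) ^ j) := by
    intro S
    by_cases h : 0 < gh S
    · obtain ⟨j, hj⟩ := exists_class (gh S) h (hgh1 S)
      exact ⟨j, fun _ => hj⟩
    · exact ⟨0, fun h' => absurd h' h⟩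
  choose cls hcls using hclsex
  set Cm : Finset (Finset X) := D.filter (fun S => ∀ R ∈ D, R ⊂ S → cls R ≠ cls S) with hCm
  set E : ℕ → Finset (Finset X) := fun j => Cm.filter (fun S => cls S = j) with hE
  have hEmem : ∀ j, ∀ S ∈ E j, S ∈ D ∧ cls S = j ∧ ∀ R ∈ D, R ⊂ S → cls R ≠ cls S := by
    intro j S hS
    have h1 := Finset.mem_filter.mp hS
    have h2 := Finset.mem_filter.mp h1.1
    exact ⟨h2.1, h1.2, h2.2⟩
  have hEdisj : ∀ j, ∀ S ∈ E j, ∀ T ∈ E j, S ≠ T → Disjoint S T := by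
    intro j S hS T hT hne
    obtain ⟨hSD, hSc, hSm⟩ := hEmem j S hS
    obtain ⟨hTD, hTc, hTm⟩ := hEmem j T hT
    rcases hDlam S hSD T hTD with h | h | h
    · exact absurd (hSc.trans hTc.symm) (hTm S hSD (Finset.ssubset_iff_subset_ne.mpr ⟨h, hne⟩))
    · exact absurd (hTc.trans hSc.symm)
        (hSm T hTD (Finset.ssubset_iff_subset_ne.mpr ⟨h, hne.symm⟩))
    · exact h
  set J : Finset ℕ := D.image cls with hJ
  set W : ℕ → ℝ := fun j => ∑ S ∈ E j, gh S * p ^ S.card with hW
  set k : ℕ → ℕ := fun j => 1 + j + ⌊(16 : ℝ) ^ j * W j / 4⌋₊ with hk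
  have hW0 : ∀ j, 0 ≤ W j := fun j =>
    Finset.sum_nonneg (fun S _ => mul_nonneg (hgh0 S) (by positivity))
  have hp1' : p < 1 := by linarith
  have hWsum : ∑ j ∈ J, W j ≤ 5 / 8 := by
    have h1 : ∑ j ∈ J, W j = ∑ S ∈ Cm, gh S * p ^ S.card :=
      Finset.sum_fiberwise_of_maps_to
        (fun S hS => Finset.mem_image_of_mem cls (Finset.mem_filter.mp hS).1) _
    have h2 : ∑ S ∈ Cm, gh S * p ^ S.card ≤ ∑ S ∈ D, Gs S * p ^ S.card := by
      calc ∑ S ∈ Cm, gh S * p ^ S.card ≤ ∑ S ∈ D, gh S * p ^ S.card :=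
            Finset.sum_le_sum_of_subset_of_nonneg (Finset.filter_subset _ _)
              (fun S _ _ => mul_nonneg (hgh0 S) (by positivity))
        _ ≤ ∑ S ∈ D, Gs S * p ^ S.card :=
            Finset.sum_le_sum (fun S _ =>
              mul_le_mul_of_nonneg_right (min_le_left _ _) (by positivity))
    have h3 : ∑ S ∈ D, Gs S * p ^ S.card ≤ (∑ S' ∈ D, g S' * p ^ S'.card) / (1 - p) :=
      budget D hDlam (fun S hS => (hDmem S hS).2) g hg0 p hp0 hp1'
    have h5 : (∑ S' ∈ D, g S' * p ^ S'.card) / (1 - p) ≤ (1 / 2) / (1 - p) := by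
      apply div_le_div_of_nonneg_right _ (by linarith)
      calc ∑ S ∈ D, g S * p ^ S.card ≤ ∑ S : Finset X, g S * p ^ S.card :=
            Finset.sum_le_sum_of_subset_of_nonneg (Finset.subset_univ _)
              (fun S _ _ => mul_nonneg (hg0 S) (by positivity))
        _ ≤ 1 / 2 := hcost
    have h6 : (1 / 2 : ℝ) / (1 - p) ≤ 5 / 8 := by
      rw [div_le_iff₀ (by linarith)]
      linarith
    calc ∑ j ∈ J, W j = ∑ S ∈ Cm, gh S * p ^ S.card := h1
      _ ≤ ∑ S ∈ D, Gs S * p ^ S.card := h2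
      _ ≤ (∑ S' ∈ D, g S' * p ^ S'.card) / (1 - p) := h3
      _ ≤ (1 / 2) / (1 - p) := h5
      _ ≤ 5 / 8 := h6
  have hgempty : g ∅ ≤ 1 / 2 := by
    have h1 : g ∅ * p ^ (∅ : Finset X).card ≤ ∑ S : Finset X, g S * p ^ S.card :=
      Finset.single_le_sum (f := fun S => g S * p ^ S.card)
        (fun S _ => mul_nonneg (hg0 S) (by positivity)) (Finset.mem_univ ∅)
    simp only [Finset.card_empty, pow_zero, mul_one] at h1
    linarith
  refine ⟨(J.sigma (fun j => (E j).powersetCard (k j))).image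
    (fun x => x.2.biUnion id), ?_, ?_⟩
  · -- covering
    intro H hH
    set I : Finset (Finset X) := D.filter (fun S => S ⊆ H) with hI
    have hIsum : 1 / 2 ≤ ∑ S ∈ I, g S := by
      have h1 := hcov H hH
      have h2 : ∑ S ∈ H.powerset, g S ≤ g ∅ + ∑ S ∈ I, g S := by
        rw [← Finset.sum_filter_add_sum_filter_not H.powerset (fun S => S ∈ D)]
        have e1 : H.powerset.filter (fun S => S ∈ D) = I := by
          ext S
          simp only [hI, Finset.mem_filter, Finset.mem_powerset]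
          tauto
        rw [e1, add_comm]
        refine add_le_add ?_ le_rfl
        calc ∑ S ∈ H.powerset.filter (fun S => S ∉ D), g S
            ≤ ∑ S ∈ H.powerset.filter (fun S => S ∉ D), (if S = ∅ then g ∅ else 0) := by
              apply Finset.sum_le_sum
              intro S hS
              rw [Finset.mem_filter] at hS
              by_cases hSe : S = ∅
              · simp [hSe]
              · simp only [hSe, if_false]
                have : g S = 0 := by
                  by_contra hne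
                  apply hS.2
                  rw [hD, Finset.mem_filter]
                  exact ⟨Finset.mem_univ _, hne, Finset.nonempty_iff_ne_empty.mpr hSe⟩
                rw [this]
          _ ≤ g ∅ := by
              rw [Finset.sum_ite_eq']
              split_ifs
              · exact le_refl _
              · exact hg0 ∅
      linarith
    by_contra hcon
    have hlt : ∀ j ∈ J, ((E j).filter (fun S => S ⊆ H)).card < k j := by
      intro j hj
      by_contra hge
      rw [not_lt] at hge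
      obtain ⟨T, hTsub, hTcard⟩ := Finset.exists_subset_card_eq hge
      apply hcon
      refine ⟨T.biUnion id, ?_, ?_⟩
      · rw [Finset.mem_image]
        refine ⟨⟨j, T⟩, ?_, rfl⟩
        rw [Finset.mem_sigma]
        refine ⟨hj, ?_⟩
        rw [Finset.mem_powersetCard]
        exact ⟨fun S hS => (Finset.mem_filter.mp (hTsub hS)).1, hTcard⟩
      · apply Finset.biUnion_subset.mpr
        intro S hS
        exact (Finset.mem_filter.mp (hTsub hS)).2
    -- maximal support sets inside `H`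
    set M : Finset (Finset X) := I.filter (fun S => ∀ T ∈ I, S ⊆ T → S = T) with hM
    have htop : ∀ S' : Finset X, ∃ S, S' ∈ I → (S ∈ M ∧ S' ⊆ S) := by
      intro S'
      by_cases h : S' ∈ I
      · obtain ⟨S, hle, hmax⟩ := Finset.exists_le_maximal I h
        refine ⟨S, fun _ => ⟨?_, hle⟩⟩
        rw [hM, Finset.mem_filter]
        exact ⟨hmax.1, fun T hT hST => le_antisymm hST (hmax.2 hT hST)⟩
      · exact ⟨∅, fun h' => absurd h' h⟩
    choose top htopspec using htop
    have hIM : ∑ S' ∈ I, g S' ≤ ∑ S ∈ M, Gs S := by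
      have e : ∑ S' ∈ I, g S' = ∑ S ∈ M, ∑ S' ∈ I.filter (fun S' => top S' = S), g S' :=
        (Finset.sum_fiberwise_of_maps_to (fun S' hS' => (htopspec S' hS').1) _).symm
      rw [e]
      apply Finset.sum_le_sum
      intro S _
      apply Finset.sum_le_sum_of_subset_of_nonneg
      · intro S' hS'
        rw [Finset.mem_filter] at hS' ⊢
        refine ⟨(Finset.mem_filter.mp hS'.1).1, ?_⟩
        have := (htopspec S' hS'.1).2
        rw [hS'.2] at this
        exact this
      · intro S' _ _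
        exact hg0 S'
    have hMD : ∀ S ∈ M, S ∈ D := fun S hS =>
      (Finset.mem_filter.mp (Finset.mem_filter.mp hS).1).1
    have hMH : ∀ S ∈ M, S ⊆ H := fun S hS =>
      (Finset.mem_filter.mp (Finset.mem_filter.mp hS).1).2
    have hMdisj : ∀ S ∈ M, ∀ T ∈ M, S ≠ T → Disjoint S T := by
      intro S hS T hT hne
      have hS' := Finset.mem_filter.mp hS
      have hT' := Finset.mem_filter.mp hT
      rcases hDlam S (hMD S hS) T (hMD T hT) with h | h | h
      · exact absurd (hS'.2 T hT'.1 h) hne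
      · exact absurd (hT'.2 S hS'.1 h).symm hne
      · exact h
    -- class-minimal representatives
    have hrep : ∀ S : Finset X, ∃ R, S ∈ D → (R ∈ E (cls S) ∧ R ⊆ S) := by
      intro S
      by_cases h : S ∈ D
      · have hne : (D.filter (fun R => R ⊆ S ∧ cls R = cls S)).Nonempty :=
          ⟨S, Finset.mem_filter.mpr ⟨h, Finset.Subset.refl S, rfl⟩⟩
        obtain ⟨R, hRmin⟩ := Finset.exists_minimal hne
        have hR := Finset.mem_filter.mp hRmin.1
        refine ⟨R, fun _ => ⟨?_, hR.2.1⟩⟩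
        rw [hE]
        simp only [Finset.mem_filter, hCm]
        refine ⟨⟨hR.1, fun R' hR' hss hc => ?_⟩, hR.2.2⟩
        have hR'mem : R' ∈ D.filter (fun R => R ⊆ S ∧ cls R = cls S) := by
          rw [Finset.mem_filter]
          exact ⟨hR', hss.subset.trans hR.2.1, hc.trans hR.2.2⟩
        have := hRmin.2 hR'mem hss.subset
        exact hss.2 this
      · exact ⟨∅, fun h' => absurd h' h⟩
    choose rep hrepspec using hrep
    have hrepinj : ∀ S ∈ M, ∀ T ∈ M, rep S = rep T → S = T := by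
      intro S hS T hT hrt
      by_contra hne
      have hd := hMdisj S hS T hT hne
      have h1 := hrepspec S (hMD S hS)
      have h2 := hrepspec T (hMD T hT)
      have hRne : (rep S).Nonempty := (hDmem _ (hEmem _ _ h1.1).1).2
      obtain ⟨x, hx⟩ := hRne
      have hxS := h1.2 hx
      have hxT : x ∈ T := h2.2 (hrt ▸ hx)
      exact Finset.disjoint_left.mp hd hxS hxT
    have hcnt : ∀ j ∈ J, (M.filter (fun S => cls S = j)).card < k j := by
      intro j hj
      refine lt_of_le_of_lt ?_ (hlt j hj)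
      apply Finset.card_le_card_of_injOn rep
      · intro S hS
        have hS' := Finset.mem_filter.mp (Finset.mem_coe.mp hS)
        have h1 := hrepspec S (hMD S hS'.1)
        rw [Finset.mem_coe, Finset.mem_filter]
        refine ⟨?_, h1.2.trans (hMH S hS'.1)⟩
        rw [← hS'.2]
        exact h1.1
      · intro S hS T hT h
        exact hrepinj S (Finset.mem_filter.mp (Finset.mem_coe.mp hS)).1 T
          (Finset.mem_filter.mp (Finset.mem_coe.mp hT)).1 h
    have hMJ : ∀ S ∈ M, cls S ∈ J := fun S hS => Finset.mem_image_of_mem cls (hMD S hS)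
    have h7 : ∑ S ∈ M, gh S ≤ 1 / 3 + (∑ j ∈ J, W j) / 4 :=
      counting M cls J W hW0 hMJ hcnt gh (fun S hS => (hcls S (hghpos S (hMD S hS))).2)
    have h8 : min (∑ S ∈ M, Gs S) 1 ≤ ∑ S ∈ M, gh S :=
      sum_min_one M Gs (fun S _ => hGs0 S)
    have h9 : (1 / 2 : ℝ) ≤ min (∑ S ∈ M, Gs S) 1 :=
      le_min (hIsum.trans hIM) (by norm_num)
    linarith
  · -- cost
    calc ∑ U ∈ (J.sigma (fun j => (E j).powersetCard (k j))).image
          (fun x => x.2.biUnion id), (p / 600) ^ U.card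
        ≤ ∑ x ∈ J.sigma (fun j => (E j).powersetCard (k j)),
            (p / 600) ^ (x.2.biUnion id).card :=
          Finset.sum_image_le_of_nonneg (fun U _ => by positivity)
      _ = ∑ j ∈ J, ∑ T ∈ (E j).powersetCard (k j),
            (p / 600) ^ (T.biUnion id).card := Finset.sum_sigma _ _ _
      _ ≤ ∑ j ∈ J, (1 / 3 : ℝ) ^ (j + 1) := by
          apply Finset.sum_le_sum
          intro j _
          have hsumW : ∑ S ∈ E j, (if S ∈ E j then gh S else 0) * p ^ S.card = W j :=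
            Finset.sum_congr rfl (fun S hS => by rw [if_pos hS])
          apply class_cost (fun S => if S ∈ E j then gh S else 0) p hp0 _ _ (E j) _ j _ (k j)
            (by rw [hsumW])
          · intro S
            split_ifs
            · exact hgh0 S
            · exact le_refl _
          · intro S T hS hT hne
            have hS' : S ∈ E j := by
              by_contra h
              exact hS (if_neg h)
            have hT' : T ∈ E j := by
              by_contra h
              exact hT (if_neg h)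
            exact hEdisj j S hS' T hT' hne
          · intro S hS
            have h := hEmem j S hS
            refine ⟨?_, (hDmem S h.1).2⟩
            rw [if_pos hS]
            exact (hghpos S h.1).ne'
          · intro S hS
            have h := hEmem j S hS
            rw [if_pos hS]
            have := (hcls S (hghpos S h.1)).1
            rw [h.2.1] at this
            exact this
      _ ≤ (1 / 3) / (1 - 1 / 3) := geom_bound (1 / 3) (by norm_num) (by norm_num) J
      _ = 1 / 2 := by norm_num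

/-- Whenever a family `F` of subsets of a finite set has a fractional cover `g` of cost at most
`1/2` at `p ∈ [0,1]` whose support is a laminar family (any two sets of positive weight are nested
or disjoint), the family `F` has a cover of cost at most `1/2` at `p / 3000`. -/
theorem result (X : Type) [Fintype X] [DecidableEq X]
    (F : Finset (Finset X)) (g : Finset X → ℝ) (p : ℝ)
    (hp0 : 0 ≤ p) (hp1 : p ≤ 1) (hg0 : ∀ S, 0 ≤ g S)
    (hcov : ∀ H ∈ F, 1 ≤ ∑ S ∈ H.powerset, g S)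
    (hcost : ∑ S : Finset X, g S * p ^ S.card ≤ 1 / 2)
    (hlam : ∀ S T, g S ≠ 0 → g T ≠ 0 → S ⊆ T ∨ T ⊆ S ∨ Disjoint S T) :
    ∃ G : Finset (Finset X), (∀ H ∈ F, ∃ S ∈ G, S ⊆ H) ∧
      ∑ S ∈ G, (p / 3000) ^ S.card ≤ 1 / 2 := by
  set q : ℝ := min p (1 / 5) with hq
  have hq0 : 0 ≤ q := le_min hp0 (by norm_num)
  have hq1 : q ≤ 1 / 5 := min_le_right _ _
  have hqp : q ≤ p := min_le_left _ _
  have hcost' : ∑ S : Finset X, g S * q ^ S.card ≤ 1 / 2 := by
    refine le_trans (Finset.sum_le_sum (fun S _ => ?_)) hcost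
    exact mul_le_mul_of_nonneg_left (pow_le_pow_left₀ hq0 hqp _) (hg0 S)
  obtain ⟨G, hG1, hG2⟩ := core X F g q hq0 hq1 hg0 hcov hcost' hlam
  refine ⟨G, hG1, le_trans (Finset.sum_le_sum (fun S _ => ?_)) hG2⟩
  apply pow_le_pow_left₀ (by positivity)
  have : p / 5 ≤ q := by
    rw [hq]
    apply le_min <;> linarith
  linarith

end Vale.Agent.Results.P034.LaminarSupport
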