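import Mathlib
import Vale.Agent.Results.P034.IntervalSupport

/-!
Talagrand's fractional versus integral expectation thresholds: fractional covers whose support
lies in a family of sets that is closed under unions of intersecting pairs and has exponentially
bounded local growth (every point lies in at most `c ^ n` members of size `n`).
-/

namespace Vale.Agent.Results.P034.LocalGrowth

open Finset
open Vale.Agent.Results.P034.DisjointSupport (esymm_le geom_bound)
open Vale.Agent.Results.P034.IntervalSupport (geom_two sq_mul_pow_le exists_class2 sum_min_le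
  counting2)

noncomputable section Sets

variable {X : Type} [DecidableEq X]

/-- The members of `D` inside `M`. -/
def Sub (D : Finset (Finset X)) (M : Finset X) : Finset (Finset X) := D.filter (fun S => S ⊆ M)

theorem mem_Sub (D : Finset (Finset X)) (M S : Finset X) : S ∈ Sub D M ↔ S ∈ D ∧ S ⊆ M := by
  simp only [Sub, Finset.mem_filter]

/-- The total weight of the members of `D` inside `M`. -/
def Gw (D : Finset (Finset X)) (g : Finset X → ℝ) (M : Finset X) : ℝ := ∑ S ∈ Sub D M, g S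

theorem Gw_nonneg (D : Finset (Finset X)) (g : Finset X → ℝ) (hg : ∀ S, 0 ≤ g S) (M : Finset X) :
    0 ≤ Gw D g M :=
  Finset.sum_nonneg (fun S _ => hg S)

theorem le_Gw (D : Finset (Finset X)) (g : Finset X → ℝ) (hg : ∀ S, 0 ≤ g S) {M S : Finset X}
    (hS : S ∈ Sub D M) : g S ≤ Gw D g M :=
  Finset.single_le_sum (f := g) (fun T _ => hg T) hS

open scoped Classical in
/-- The heavy members of class `s`. -/
def Mcls (D : Finset (Finset X)) (g : Finset X → ℝ) (s : ℕ) : Finset (Finset X) :=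
  D.filter (fun M => (1 / 2 : ℝ) ^ (s + 2) ≤ Gw D g M ∧ ∀ S ∈ Sub D M, (2 : ℝ) ^ s * g S ≤ 1)

theorem mem_Mcls (D : Finset (Finset X)) (g : Finset X → ℝ) (s : ℕ) (M : Finset X) :
    M ∈ Mcls D g s ↔ M ∈ D ∧ (1 / 2 : ℝ) ^ (s + 2) ≤ Gw D g M ∧
      ∀ S ∈ Sub D M, (2 : ℝ) ^ s * g S ≤ 1 := by
  simp only [Mcls, Finset.mem_filter]

/-- The part of the cost of the fractional cover attributed to class `s`. -/
def fcls (D : Finset (Finset X)) (g : Finset X → ℝ) (p : ℝ) (s : ℕ) : ℝ :=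
  ∑ S ∈ D, g S * p ^ S.card * (if (2 : ℝ) ^ s * g S ≤ 1 then (2 : ℝ) ^ s * g S else 0)

omit [DecidableEq X] in
theorem fcls_nonneg (D : Finset (Finset X)) (g : Finset X → ℝ) (hg0 : ∀ S, 0 ≤ g S) (p : ℝ)
    (hp0 : 0 ≤ p) (s : ℕ) : 0 ≤ fcls D g p s := by
  apply Finset.sum_nonneg
  intro S _
  apply mul_nonneg (mul_nonneg (hg0 S) (pow_nonneg hp0 _))
  split_ifs
  · exact mul_nonneg (by positivity) (hg0 S)
  · exact le_rfl

omit [DecidableEq X] in
theorem fcls_sum (D : Finset (Finset X)) (g : Finset X → ℝ) (hg0 : ∀ S, 0 ≤ g S) (p : ℝ)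
    (hp0 : 0 ≤ p) (hc : ∑ S ∈ D, g S * p ^ S.card ≤ 1 / 2) (J : Finset ℕ) :
    ∑ s ∈ J, fcls D g p s ≤ 1 := by
  have hsub : J ⊆ Finset.range (J.sup id + 1) := by
    intro j hj
    rw [Finset.mem_range]
    have : id j ≤ J.sup id := Finset.le_sup hj
    simp only [id] at this
    omega
  calc ∑ s ∈ J, fcls D g p s ≤ ∑ s ∈ Finset.range (J.sup id + 1), fcls D g p s :=
        Finset.sum_le_sum_of_subset_of_nonneg hsub (fun s _ _ => fcls_nonneg D g hg0 p hp0 s)
    _ = ∑ S ∈ D, g S * p ^ S.card * ∑ s ∈ Finset.range (J.sup id + 1),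
            (if (2 : ℝ) ^ s * g S ≤ 1 then (2 : ℝ) ^ s * g S else 0) := by
        simp only [fcls]
        rw [Finset.sum_comm]
        apply Finset.sum_congr rfl
        intro S _
        rw [Finset.mul_sum]
    _ ≤ ∑ S ∈ D, g S * p ^ S.card * 2 := by
        apply Finset.sum_le_sum
        intro S _
        exact mul_le_mul_of_nonneg_left (geom_two (g S) (hg0 S) _)
          (mul_nonneg (hg0 S) (pow_nonneg hp0 _))
    _ = (∑ S ∈ D, g S * p ^ S.card) * 2 := by rw [Finset.sum_mul]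
    _ ≤ 1 := by linarith

/-- A set of size `m` contains at most `m ^ 2 * c ^ m` members of `D`. -/
theorem card_Sub_le (D : Finset (Finset X)) (c : ℝ) (hc : 1 ≤ c)
    (hne : ∀ A ∈ D, A.Nonempty)
    (hgrow : ∀ (x : X) (n : ℕ), ((D.filter (fun A => x ∈ A ∧ A.card = n)).card : ℝ) ≤ c ^ n)
    (M : Finset X) :
    ((Sub D M).card : ℝ) ≤ (M.card : ℝ) ^ 2 * c ^ M.card := by
  classical
  have hsub : Sub D M ⊆ M.biUnion (fun x => (Finset.Icc 1 M.card).biUnion
      (fun n => D.filter (fun A => x ∈ A ∧ A.card = n))) := by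
    intro S hS
    rw [mem_Sub] at hS
    obtain ⟨x, hx⟩ := hne S hS.1
    rw [Finset.mem_biUnion]
    refine ⟨x, hS.2 hx, ?_⟩
    rw [Finset.mem_biUnion]
    refine ⟨S.card, ?_, ?_⟩
    · rw [Finset.mem_Icc]
      exact ⟨Finset.card_pos.mpr ⟨x, hx⟩, Finset.card_le_card hS.2⟩
    · rw [Finset.mem_filter]
      exact ⟨hS.1, hx, rfl⟩
  have h1 : ((Sub D M).card : ℝ) ≤ ((M.biUnion (fun x => (Finset.Icc 1 M.card).biUnion
      (fun n => D.filter (fun A => x ∈ A ∧ A.card = n)))).card : ℝ) := by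
    exact_mod_cast Finset.card_le_card hsub
  have h2 : ∀ x : X, (((Finset.Icc 1 M.card).biUnion
      (fun n => D.filter (fun A => x ∈ A ∧ A.card = n))).card : ℝ)
      ≤ (M.card : ℝ) * c ^ M.card := by
    intro x
    have ha : (((Finset.Icc 1 M.card).biUnion
        (fun n => D.filter (fun A => x ∈ A ∧ A.card = n))).card : ℝ)
        ≤ ∑ n ∈ Finset.Icc 1 M.card, ((D.filter (fun A => x ∈ A ∧ A.card = n)).card : ℝ) := by
      exact_mod_cast Finset.card_biUnion_le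
    have hb : ∑ n ∈ Finset.Icc 1 M.card, ((D.filter (fun A => x ∈ A ∧ A.card = n)).card : ℝ)
        ≤ ∑ n ∈ Finset.Icc 1 M.card, c ^ M.card := by
      apply Finset.sum_le_sum
      intro n hn
      rw [Finset.mem_Icc] at hn
      exact (hgrow x n).trans (pow_le_pow_right₀ hc hn.2)
    have hd : ∑ n ∈ Finset.Icc 1 M.card, c ^ M.card = (M.card : ℝ) * c ^ M.card := by
      rw [Finset.sum_const, Nat.card_Icc, nsmul_eq_mul]
      simp
    linarith
  have h3 : ((M.biUnion (fun x => (Finset.Icc 1 M.card).biUnion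
      (fun n => D.filter (fun A => x ∈ A ∧ A.card = n)))).card : ℝ)
      ≤ ∑ x ∈ M, (((Finset.Icc 1 M.card).biUnion
        (fun n => D.filter (fun A => x ∈ A ∧ A.card = n))).card : ℝ) := by
    exact_mod_cast Finset.card_biUnion_le
  have h4 : ∑ x ∈ M, (((Finset.Icc 1 M.card).biUnion
        (fun n => D.filter (fun A => x ∈ A ∧ A.card = n))).card : ℝ)
      ≤ ∑ x ∈ M, (M.card : ℝ) * c ^ M.card := Finset.sum_le_sum (fun x _ => h2 x)
  have h5 : ∑ x ∈ M, (M.card : ℝ) * c ^ M.card = (M.card : ℝ) ^ 2 * c ^ M.card := by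
    rw [Finset.sum_const, nsmul_eq_mul]
    ring
  linarith

/-- The costs of the members of `D` through a fixed point are dominated by a geometric series. -/
theorem growth_sum [Fintype X] (D : Finset (Finset X)) (c : ℝ) (hc : 1 ≤ c)
    (hgrow : ∀ (x : X) (n : ℕ), ((D.filter (fun A => x ∈ A ∧ A.card = n)).card : ℝ) ≤ c ^ n)
    (x : X) :
    ∑ M ∈ D.filter (fun M => x ∈ M), (1 / (50 * c)) ^ M.card ≤ 1 / 49 := by
  classical
  have hmaps : ∀ M ∈ D.filter (fun M => x ∈ M),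
      M.card ∈ Finset.Ico 1 (Fintype.card X + 1) := by
    intro M hM
    rw [Finset.mem_filter] at hM
    rw [Finset.mem_Ico]
    exact ⟨Finset.card_pos.mpr ⟨x, hM.2⟩, Nat.lt_succ_of_le (Finset.card_le_univ M)⟩
  have hc0 : 0 < c := by linarith
  rw [← Finset.sum_fiberwise_of_maps_to hmaps]
  have hterm : ∀ n ∈ Finset.Ico 1 (Fintype.card X + 1),
      ∑ M ∈ (D.filter (fun M => x ∈ M)).filter (fun M => M.card = n), (1 / (50 * c)) ^ M.card
        ≤ (1 / 50 : ℝ) ^ n := by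
    intro n _
    have e : ∑ M ∈ (D.filter (fun M => x ∈ M)).filter (fun M => M.card = n),
          (1 / (50 * c)) ^ M.card
        = (((D.filter (fun M => x ∈ M)).filter (fun M => M.card = n)).card : ℝ) *
            (1 / (50 * c)) ^ n := by
      rw [Finset.sum_congr rfl (fun M hM => by rw [(Finset.mem_filter.mp hM).2]),
        Finset.sum_const, nsmul_eq_mul]
    rw [e]
    have hcard : (((D.filter (fun M => x ∈ M)).filter (fun M => M.card = n)).card : ℝ)
        ≤ c ^ n := by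
      rw [Finset.filter_filter]
      exact hgrow x n
    have e2 : c ^ n * (1 / (50 * c)) ^ n = (1 / 50 : ℝ) ^ n := by
      rw [← mul_pow]
      congr 1
      field_simp
    calc (((D.filter (fun M => x ∈ M)).filter (fun M => M.card = n)).card : ℝ) *
          (1 / (50 * c)) ^ n
        ≤ c ^ n * (1 / (50 * c)) ^ n := mul_le_mul_of_nonneg_right hcard (by positivity)
      _ = (1 / 50 : ℝ) ^ n := e2
  calc ∑ n ∈ Finset.Ico 1 (Fintype.card X + 1),
        ∑ M ∈ (D.filter (fun M => x ∈ M)).filter (fun M => M.card = n), (1 / (50 * c)) ^ M.card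
      ≤ ∑ n ∈ Finset.Ico 1 (Fintype.card X + 1), (1 / 50 : ℝ) ^ n := Finset.sum_le_sum hterm
    _ ≤ (1 / 50 : ℝ) ^ 1 / (1 - 1 / 50) :=
        geom_sum_Ico_le_of_lt_one (by norm_num) (by norm_num)
    _ = 1 / 49 := by norm_num

/-- Cauchy-Schwarz for one heavy member. -/
theorem heavy_point (D : Finset (Finset X)) (c : ℝ) (hc : 1 ≤ c)
    (hne : ∀ A ∈ D, A.Nonempty)
    (hgrow : ∀ (x : X) (n : ℕ), ((D.filter (fun A => x ∈ A ∧ A.card = n)).card : ℝ) ≤ c ^ n)
    (g : Finset X → ℝ) (p : ℝ) (hp0 : 0 ≤ p) (hp1 : p ≤ 1)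
    (s : ℕ) (M : Finset X) (hM : M ∈ Mcls D g s) :
    (p / (2500 * c ^ 2)) ^ M.card ≤ 8 / 25 * (4 : ℝ) ^ s * ((1 / (50 * c)) ^ M.card *
      ∑ S ∈ Sub D M, g S ^ 2 * p ^ S.card) := by
  rw [mem_Mcls] at hM
  obtain ⟨hM1, hM2, -⟩ := hM
  have hc0 : 0 < c := by linarith
  have hn1 : 1 ≤ M.card := Finset.card_pos.mpr (hne M hM1)
  have hcs : (∑ S ∈ Sub D M, g S) ^ 2 ≤ ((Sub D M).card : ℝ) * ∑ S ∈ Sub D M, g S ^ 2 :=
    sq_sum_le_card_mul_sum_sq
  have hcard := card_Sub_le D c hc hne hgrow M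
  have hQ0 : 0 ≤ ∑ S ∈ Sub D M, g S ^ 2 := Finset.sum_nonneg (fun S _ => sq_nonneg _)
  have hG : ((1 / 2 : ℝ) ^ (s + 2)) ^ 2
      ≤ ((M.card : ℝ) ^ 2 * c ^ M.card) * ∑ S ∈ Sub D M, g S ^ 2 := by
    calc ((1 / 2 : ℝ) ^ (s + 2)) ^ 2 ≤ (Gw D g M) ^ 2 := pow_le_pow_left₀ (by positivity) hM2 2
      _ ≤ ((Sub D M).card : ℝ) * ∑ S ∈ Sub D M, g S ^ 2 := hcs
      _ ≤ ((M.card : ℝ) ^ 2 * c ^ M.card) * ∑ S ∈ Sub D M, g S ^ 2 :=
          mul_le_mul_of_nonneg_right hcard hQ0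
  have e2 : 16 * (4 : ℝ) ^ s * ((1 / 2 : ℝ) ^ (s + 2)) ^ 2 = 1 := by
    have e4 : (4 : ℝ) ^ s * ((1 / 2 : ℝ) ^ s) ^ 2 = 1 := by
      rw [← pow_mul, mul_comm s 2, pow_mul, ← mul_pow]
      norm_num
    rw [pow_add, mul_pow]
    linear_combination (16 * ((1 / 2 : ℝ) ^ 2) ^ 2) * e4
  have h16 : (1 : ℝ) ≤ 16 * (4 : ℝ) ^ s *
      (((M.card : ℝ) ^ 2 * c ^ M.card) * ∑ S ∈ Sub D M, g S ^ 2) := by
    rw [← e2]
    exact mul_le_mul_of_nonneg_left hG (by positivity)
  have hQp : p ^ M.card * ∑ S ∈ Sub D M, g S ^ 2 ≤ ∑ S ∈ Sub D M, g S ^ 2 * p ^ S.card := by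
    rw [Finset.mul_sum]
    apply Finset.sum_le_sum
    intro S hS
    rw [mul_comm]
    exact mul_le_mul_of_nonneg_left
      (pow_le_pow_of_le_one hp0 hp1 (Finset.card_le_card ((mem_Sub D M S).mp hS).2))
      (sq_nonneg _)
  have hsq := sq_mul_pow_le M.card hn1
  have key : (p / (2500 * c ^ 2)) ^ M.card * c ^ M.card
      = p ^ M.card * (1 / 50 : ℝ) ^ M.card * (1 / (50 * c)) ^ M.card := by
    rw [← mul_pow, ← mul_pow, ← mul_pow]
    congr 1
    field_simp
    ring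
  have hL0 : (0 : ℝ) ≤ (1 / (50 * c)) ^ M.card := by positivity
  have hpn0 : 0 ≤ p ^ M.card := pow_nonneg hp0 _
  have hlhs0 : 0 ≤ (p / (2500 * c ^ 2)) ^ M.card := by positivity
  calc (p / (2500 * c ^ 2)) ^ M.card
      ≤ (p / (2500 * c ^ 2)) ^ M.card *
          (16 * (4 : ℝ) ^ s * (((M.card : ℝ) ^ 2 * c ^ M.card) * ∑ S ∈ Sub D M, g S ^ 2)) :=
        le_mul_of_one_le_right hlhs0 h16
    _ = 16 * (4 : ℝ) ^ s * (M.card : ℝ) ^ 2 * (∑ S ∈ Sub D M, g S ^ 2) *
          ((p / (2500 * c ^ 2)) ^ M.card * c ^ M.card) := by ring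
    _ = 16 * (4 : ℝ) ^ s * (1 / (50 * c)) ^ M.card *
          (((M.card : ℝ) ^ 2 * (1 / 50 : ℝ) ^ M.card) *
            (p ^ M.card * ∑ S ∈ Sub D M, g S ^ 2)) := by
        rw [key]
        ring
    _ ≤ 16 * (4 : ℝ) ^ s * (1 / (50 * c)) ^ M.card *
          ((1 / 50) * ∑ S ∈ Sub D M, g S ^ 2 * p ^ S.card) := by
        apply mul_le_mul_of_nonneg_left _ (by positivity)
        exact mul_le_mul hsq hQp (mul_nonneg hpn0 hQ0) (by norm_num)
    _ = 8 / 25 * (4 : ℝ) ^ s * ((1 / (50 * c)) ^ M.card *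
          ∑ S ∈ Sub D M, g S ^ 2 * p ^ S.card) := by ring

/-- The total cost of the heavy members of class `s` is controlled by the part of the cost of
the fractional cover attributed to that class. -/
theorem class_budget [Fintype X] (D : Finset (Finset X)) (c : ℝ) (hc : 1 ≤ c)
    (hne : ∀ A ∈ D, A.Nonempty)
    (hgrow : ∀ (x : X) (n : ℕ), ((D.filter (fun A => x ∈ A ∧ A.card = n)).card : ℝ) ≤ c ^ n)
    (g : Finset X → ℝ) (p : ℝ) (hp0 : 0 ≤ p) (hp1 : p ≤ 1) (s : ℕ) :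
    ∑ M ∈ Mcls D g s, (p / (2500 * c ^ 2)) ^ M.card
      ≤ 8 / 1225 * ((2 : ℝ) ^ s * fcls D g p s) := by
  classical
  have hc0 : 0 < c := by linarith
  have hw0 : ∀ S : Finset X, 0 ≤ g S ^ 2 * p ^ S.card := fun S =>
    mul_nonneg (sq_nonneg _) (pow_nonneg hp0 _)
  have h1 : ∑ M ∈ Mcls D g s, (p / (2500 * c ^ 2)) ^ M.card
      ≤ ∑ M ∈ Mcls D g s, 8 / 25 * (4 : ℝ) ^ s * ((1 / (50 * c)) ^ M.card *
          ∑ S ∈ Sub D M, g S ^ 2 * p ^ S.card) :=
    Finset.sum_le_sum (fun M hM => heavy_point D c hc hne hgrow g p hp0 hp1 s M hM)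
  have h2 : ∑ M ∈ Mcls D g s, (1 / (50 * c)) ^ M.card * ∑ S ∈ Sub D M, g S ^ 2 * p ^ S.card
      = ∑ S ∈ D, g S ^ 2 * p ^ S.card *
          ∑ M ∈ (Mcls D g s).filter (fun M => S ⊆ M), (1 / (50 * c)) ^ M.card := by
    simp only [Finset.mul_sum]
    rw [Finset.sum_comm' (s' := fun S => (Mcls D g s).filter (fun M => S ⊆ M)) (t' := D)]
    · apply Finset.sum_congr rfl
      intro S _
      apply Finset.sum_congr rfl
      intro M _
      ring
    · intro M S
      simp only [Finset.mem_filter, mem_Sub]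
      tauto
  have h3 : ∀ S ∈ D, g S ^ 2 * p ^ S.card *
        ∑ M ∈ (Mcls D g s).filter (fun M => S ⊆ M), (1 / (50 * c)) ^ M.card
      ≤ 1 / 49 * (if (2 : ℝ) ^ s * g S ≤ 1 then g S ^ 2 * p ^ S.card else 0) := by
    intro S hS
    by_cases hsm : (2 : ℝ) ^ s * g S ≤ 1
    · rw [if_pos hsm]
      obtain ⟨x, hx⟩ := hne S hS
      have hsubset : (Mcls D g s).filter (fun M => S ⊆ M) ⊆ D.filter (fun M => x ∈ M) := by
        intro M hM
        rw [Finset.mem_filter] at hM ⊢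
        exact ⟨((mem_Mcls D g s M).mp hM.1).1, hM.2 hx⟩
      have hle : ∑ M ∈ (Mcls D g s).filter (fun M => S ⊆ M), (1 / (50 * c)) ^ M.card
          ≤ 1 / 49 :=
        (Finset.sum_le_sum_of_subset_of_nonneg hsubset (fun M _ _ => by positivity)).trans
          (growth_sum D c hc hgrow x)
      calc g S ^ 2 * p ^ S.card *
            ∑ M ∈ (Mcls D g s).filter (fun M => S ⊆ M), (1 / (50 * c)) ^ M.card
          ≤ g S ^ 2 * p ^ S.card * (1 / 49) := mul_le_mul_of_nonneg_left hle (hw0 S)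
        _ = 1 / 49 * (g S ^ 2 * p ^ S.card) := by ring
    · rw [if_neg hsm]
      have hempty : (Mcls D g s).filter (fun M => S ⊆ M) = ∅ := by
        rw [Finset.filter_eq_empty_iff]
        intro M hM hSM
        exact hsm (((mem_Mcls D g s M).mp hM).2.2 S ((mem_Sub D M S).mpr ⟨hS, hSM⟩))
      rw [hempty]
      simp
  have h5 : (4 : ℝ) ^ s * ∑ S ∈ D,
        1 / 49 * (if (2 : ℝ) ^ s * g S ≤ 1 then g S ^ 2 * p ^ S.card else 0)
      = 1 / 49 * ((2 : ℝ) ^ s * fcls D g p s) := by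
    rw [fcls, Finset.mul_sum, Finset.mul_sum, Finset.mul_sum]
    apply Finset.sum_congr rfl
    intro S _
    have e4 : (4 : ℝ) ^ s = (2 : ℝ) ^ s * (2 : ℝ) ^ s := by
      rw [← mul_pow]
      norm_num
    split_ifs
    · rw [e4]
      ring
    · simp
  calc ∑ M ∈ Mcls D g s, (p / (2500 * c ^ 2)) ^ M.card
      ≤ ∑ M ∈ Mcls D g s, 8 / 25 * (4 : ℝ) ^ s * ((1 / (50 * c)) ^ M.card *
          ∑ S ∈ Sub D M, g S ^ 2 * p ^ S.card) := h1
    _ = 8 / 25 * (4 : ℝ) ^ s * ∑ M ∈ Mcls D g s, (1 / (50 * c)) ^ M.card *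
          ∑ S ∈ Sub D M, g S ^ 2 * p ^ S.card := by rw [Finset.mul_sum]
    _ = 8 / 25 * (4 : ℝ) ^ s * ∑ S ∈ D, g S ^ 2 * p ^ S.card *
          ∑ M ∈ (Mcls D g s).filter (fun M => S ⊆ M), (1 / (50 * c)) ^ M.card := by rw [h2]
    _ ≤ 8 / 25 * (4 : ℝ) ^ s * ∑ S ∈ D,
          1 / 49 * (if (2 : ℝ) ^ s * g S ≤ 1 then g S ^ 2 * p ^ S.card else 0) :=
        mul_le_mul_of_nonneg_left (Finset.sum_le_sum h3) (by positivity)
    _ = 8 / 25 * ((4 : ℝ) ^ s * ∑ S ∈ D,
          1 / 49 * (if (2 : ℝ) ^ s * g S ≤ 1 then g S ^ 2 * p ^ S.card else 0)) := by ring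
    _ = 8 / 1225 * ((2 : ℝ) ^ s * fcls D g p s) := by
        rw [h5]
        ring

open scoped Classical in
/-- The families of `k` pairwise disjoint heavy members of class `s`. -/
def PDfam (D : Finset (Finset X)) (g : Finset X → ℝ) (s k : ℕ) : Finset (Finset (Finset X)) :=
  ((Mcls D g s).powersetCard k).filter (fun J => (J : Set (Finset X)).PairwiseDisjoint id)

theorem mem_PDfam (D : Finset (Finset X)) (g : Finset X → ℝ) (s k : ℕ)
    (J : Finset (Finset X)) :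
    J ∈ PDfam D g s k ↔ J ⊆ Mcls D g s ∧ J.card = k ∧
      (J : Set (Finset X)).PairwiseDisjoint id := by
  simp only [PDfam, Finset.mem_filter, Finset.mem_powersetCard, and_assoc]

/-- The cost of one class of the cover. -/
theorem class_cost2 [Fintype X] (D : Finset (Finset X)) (c : ℝ) (hc : 1 ≤ c)
    (hne : ∀ A ∈ D, A.Nonempty)
    (hgrow : ∀ (x : X) (n : ℕ), ((D.filter (fun A => x ∈ A ∧ A.card = n)).card : ℝ) ≤ c ^ n)
    (g : Finset X → ℝ) (hg0 : ∀ S, 0 ≤ g S) (p : ℝ) (hp0 : 0 ≤ p) (hp1 : p ≤ 1)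
    (s k : ℕ) (hk : k = ⌊(2 : ℝ) ^ s * fcls D g p s / 4⌋₊ + s / 2 + 1) :
    ∑ J ∈ PDfam D g s k, (p / (2500 * c ^ 2)) ^ (J.biUnion id).card ≤ (1 / 3 : ℝ) ^ (s + 1) := by
  classical
  have hc0 : 0 < c := by linarith
  have hb0 : ∀ M : Finset X, 0 ≤ (p / (2500 * c ^ 2)) ^ M.card := fun M => by positivity
  have step1 : ∑ J ∈ PDfam D g s k, (p / (2500 * c ^ 2)) ^ (J.biUnion id).card
      ≤ ∑ J ∈ (Mcls D g s).powersetCard k, ∏ M ∈ J, (p / (2500 * c ^ 2)) ^ M.card := by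
    have e : ∀ J ∈ PDfam D g s k,
        (p / (2500 * c ^ 2)) ^ (J.biUnion id).card = ∏ M ∈ J, (p / (2500 * c ^ 2)) ^ M.card := by
      intro J hJ
      rw [mem_PDfam] at hJ
      rw [Finset.card_biUnion hJ.2.2, ← Finset.prod_pow_eq_pow_sum]
      simp only [id]
    rw [Finset.sum_congr rfl e]
    apply Finset.sum_le_sum_of_subset_of_nonneg
    · intro J hJ
      rw [mem_PDfam] at hJ
      exact Finset.mem_powersetCard.mpr ⟨hJ.1, hJ.2.1⟩
    · intro J _ _
      exact Finset.prod_nonneg (fun M _ => hb0 M)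
  have step2 := esymm_le (fun M : Finset X => (p / (2500 * c ^ 2)) ^ M.card) hb0 (Mcls D g s) k
  have hf0 : 0 ≤ fcls D g p s := fcls_nonneg D g hg0 p hp0 s
  have hA0 : 0 ≤ ∑ M ∈ Mcls D g s, (p / (2500 * c ^ 2)) ^ M.card :=
    Finset.sum_nonneg (fun M _ => hb0 M)
  have step3 : ∑ M ∈ Mcls D g s, (p / (2500 * c ^ 2)) ^ M.card ≤ 32 / 1225 * (k : ℝ) := by
    have h1 := class_budget D c hc hne hgrow g p hp0 hp1 s
    have h6 : (2 : ℝ) ^ s * fcls D g p s / 4 < ⌊(2 : ℝ) ^ s * fcls D g p s / 4⌋₊ + 1 :=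
      Nat.lt_floor_add_one _
    have h7 : ((⌊(2 : ℝ) ^ s * fcls D g p s / 4⌋₊ : ℝ) + 1) ≤ (k : ℝ) := by
      have : ⌊(2 : ℝ) ^ s * fcls D g p s / 4⌋₊ + 1 ≤ k := by omega
      exact_mod_cast this
    linarith
  have hkpos : (0 : ℝ) < (k.factorial : ℝ) := by positivity
  have hk2 : s + 1 ≤ 2 * k := by omega
  have step4 : (∑ M ∈ Mcls D g s, (p / (2500 * c ^ 2)) ^ M.card) ^ k / (k.factorial : ℝ)
      ≤ (1 / 9 : ℝ) ^ k := by
    have h1 : (∑ M ∈ Mcls D g s, (p / (2500 * c ^ 2)) ^ M.card) ^ k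
        ≤ (32 / 1225 * (k : ℝ)) ^ k := pow_le_pow_left₀ hA0 step3 k
    have h2 : (k : ℝ) ^ k / (k.factorial : ℝ) ≤ Real.exp k :=
      Real.pow_div_factorial_le_exp (k : ℝ) (Nat.cast_nonneg k) k
    have h3 : Real.exp (k : ℝ) = Real.exp 1 ^ k := by
      have := Real.exp_nat_mul 1 k
      rwa [mul_one] at this
    have h4 : Real.exp 1 ≤ 2.72 := by
      have := Real.exp_one_lt_d9
      linarith
    have h5 : (32 / 1225 * (k : ℝ)) ^ k / (k.factorial : ℝ)
        = (32 / 1225 : ℝ) ^ k * ((k : ℝ) ^ k / (k.factorial : ℝ)) := by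
      rw [mul_pow]
      ring
    calc (∑ M ∈ Mcls D g s, (p / (2500 * c ^ 2)) ^ M.card) ^ k / (k.factorial : ℝ)
        ≤ (32 / 1225 * (k : ℝ)) ^ k / (k.factorial : ℝ) :=
          div_le_div_of_nonneg_right h1 hkpos.le
      _ = (32 / 1225 : ℝ) ^ k * ((k : ℝ) ^ k / (k.factorial : ℝ)) := h5
      _ ≤ (32 / 1225 : ℝ) ^ k * Real.exp 1 ^ k := by
          rw [← h3]
          exact mul_le_mul_of_nonneg_left h2 (by positivity)
      _ = (32 / 1225 * Real.exp 1) ^ k := by rw [mul_pow]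
      _ ≤ (1 / 9 : ℝ) ^ k := by
          apply pow_le_pow_left₀ (by positivity)
          have : (0 : ℝ) < Real.exp 1 := Real.exp_pos 1
          linarith
  have e9 : (1 / 9 : ℝ) ^ k = (1 / 3 : ℝ) ^ (2 * k) := by
    rw [pow_mul]
    norm_num
  calc ∑ J ∈ PDfam D g s k, (p / (2500 * c ^ 2)) ^ (J.biUnion id).card
      ≤ ∑ J ∈ (Mcls D g s).powersetCard k, ∏ M ∈ J, (p / (2500 * c ^ 2)) ^ M.card := step1
    _ ≤ (∑ M ∈ Mcls D g s, (p / (2500 * c ^ 2)) ^ M.card) ^ k / (k.factorial : ℝ) := step2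
    _ ≤ (1 / 9 : ℝ) ^ k := step4
    _ = (1 / 3 : ℝ) ^ (2 * k) := e9
    _ ≤ (1 / 3 : ℝ) ^ (s + 1) := pow_le_pow_of_le_one (by norm_num) (by norm_num) hk2

/-- The mass of a fractional cover inside a set `H`, read on the nonempty support sets. -/
theorem support_mass (D : Finset (Finset X)) (g : Finset X → ℝ) (hg0 : ∀ S, 0 ≤ g S)
    (hsupp : ∀ S, g S ≠ 0 → S = ∅ ∨ S ∈ D) (H : Finset X) :
    ∑ S ∈ H.powerset, g S ≤ g ∅ + ∑ S ∈ D.filter (fun S => S ⊆ H), g S := by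
  classical
  rw [← Finset.sum_filter_add_sum_filter_not H.powerset (fun S => S ∈ D)]
  have e1 : H.powerset.filter (fun S => S ∈ D) = D.filter (fun S => S ⊆ H) := by
    ext S
    simp only [Finset.mem_filter, Finset.mem_powerset]
    tauto
  rw [e1, add_comm]
  refine add_le_add ?_ le_rfl
  calc ∑ S ∈ H.powerset.filter (fun S => S ∉ D), g S
      ≤ ∑ S ∈ H.powerset.filter (fun S => S ∉ D), (if S = ∅ then g ∅ else 0) := by
        apply Finset.sum_le_sum
        intro S hS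
        rw [Finset.mem_filter] at hS
        by_cases hSe : S = ∅
        · simp [hSe]
        · simp only [hSe, if_false]
          have : g S = 0 := by
            by_contra hne
            rcases hsupp S hne with h | h
            · exact hSe h
            · exact hS.2 h
          rw [this]
    _ ≤ g ∅ := by
        rw [Finset.sum_ite_eq']
        split_ifs
        · exact le_refl _
        · exact hg0 ∅

/-- The runs of `H`: pairwise disjoint maximal members of `D` inside `H` of positive weight,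
which carry the whole weight of the members of `D` inside `H`. -/
theorem runs_exist (D : Finset (Finset X))
    (hunion : ∀ A ∈ D, ∀ B ∈ D, ¬ Disjoint A B → A ∪ B ∈ D)
    (g : Finset X → ℝ) (hg0 : ∀ S, 0 ≤ g S) (H : Finset X) :
    ∃ R : Finset (Finset X), (∀ M ∈ R, M ∈ D ∧ M ⊆ H ∧ 0 < Gw D g M) ∧
      (∀ M ∈ R, ∀ M' ∈ R, M ≠ M' → Disjoint M M') ∧
      ∑ S ∈ D.filter (fun S => S ⊆ H), g S ≤ ∑ M ∈ R, Gw D g M := by
  classical
  set I : Finset (Finset X) := D.filter (fun S => S ⊆ H) with hI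
  have hImem : ∀ S, S ∈ I ↔ (S ∈ D ∧ S ⊆ H) := by
    intro S
    rw [hI, Finset.mem_filter]
  set Rm : Finset (Finset X) := I.filter (fun M => ∀ T ∈ I, M ⊆ T → M = T) with hRm
  set R : Finset (Finset X) := Rm.filter (fun M => 0 < Gw D g M) with hR
  have hRmmem : ∀ M ∈ Rm, M ∈ I ∧ ∀ T ∈ I, M ⊆ T → M = T :=
    fun M hM => Finset.mem_filter.mp hM
  have htop : ∀ S : Finset X, ∃ T, S ∈ I → (T ∈ Rm ∧ S ⊆ T) := by
    intro S
    by_cases h : S ∈ I
    · obtain ⟨T, hle, hmax⟩ := Finset.exists_le_maximal I h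
      refine ⟨T, fun _ => ⟨?_, hle⟩⟩
      rw [hRm, Finset.mem_filter]
      exact ⟨hmax.1, fun T' hT' hTT' => le_antisymm hTT' (hmax.2 hT' hTT')⟩
    · exact ⟨S, fun h' => absurd h' h⟩
  choose top htopspec using htop
  refine ⟨R, ?_, ?_, ?_⟩
  · intro M hM
    rw [hR, Finset.mem_filter] at hM
    have h1 := (hImem M).mp (hRmmem M hM.1).1
    exact ⟨h1.1, h1.2, hM.2⟩
  · intro M hM M' hM' hne
    rw [hR, Finset.mem_filter] at hM hM'
    have hM1 := hRmmem M hM.1
    have hM1' := hRmmem M' hM'.1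
    have hP := (hImem M).mp hM1.1
    have hP' := (hImem M').mp hM1'.1
    by_contra hnd
    apply hne
    have hU : M ∪ M' ∈ I :=
      (hImem _).mpr ⟨hunion M hP.1 M' hP'.1 hnd, Finset.union_subset hP.2 hP'.2⟩
    have e1 : M = M ∪ M' := hM1.2 _ hU Finset.subset_union_left
    have e2 : M' = M ∪ M' := hM1'.2 _ hU Finset.subset_union_right
    exact e1.trans e2.symm
  · have e0 : ∑ S ∈ I.filter (fun S => 0 < g S), g S = ∑ S ∈ I, g S := by
      apply Finset.sum_filter_of_ne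
      intro S _ hne
      exact lt_of_le_of_ne (hg0 S) (Ne.symm hne)
    have hmaps : ∀ S ∈ I.filter (fun S => 0 < g S), top S ∈ R := by
      intro S hS
      rw [Finset.mem_filter] at hS
      have h1 := htopspec S hS.1
      rw [hR, Finset.mem_filter]
      exact ⟨h1.1, lt_of_lt_of_le hS.2
        (le_Gw D g hg0 ((mem_Sub D _ S).mpr ⟨((hImem S).mp hS.1).1, h1.2⟩))⟩
    rw [← e0, ← Finset.sum_fiberwise_of_maps_to hmaps]
    apply Finset.sum_le_sum
    intro M _
    rw [Gw]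
    apply Finset.sum_le_sum_of_subset_of_nonneg
    · intro S hS
      rw [Finset.mem_filter] at hS
      have hS1 := (Finset.mem_filter.mp hS.1).1
      have h1 := htopspec S hS1
      rw [hS.2] at h1
      exact (mem_Sub D M S).mpr ⟨((hImem S).mp hS1).1, h1.2⟩
    · intro S _ _
      exact hg0 S

end Sets

/-- The core case: weights at most one. -/
theorem core (X : Type) [Fintype X] [DecidableEq X]
    (C : Finset (Finset X)) (c : ℝ) (hc : 1 ≤ c)
    (hunion : ∀ A ∈ C, ∀ B ∈ C, ¬ Disjoint A B → A ∪ B ∈ C)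
    (hgrow : ∀ (x : X) (n : ℕ), ((C.filter (fun A => x ∈ A ∧ A.card = n)).card : ℝ) ≤ c ^ n)
    (F : Finset (Finset X)) (g : Finset X → ℝ) (p : ℝ) (hp0 : 0 ≤ p) (hp1 : p ≤ 1)
    (hg0 : ∀ S, 0 ≤ g S) (hg1 : ∀ S, g S ≤ 1)
    (hcov : ∀ H ∈ F, 1 ≤ ∑ S ∈ H.powerset, g S)
    (hcost : ∑ S : Finset X, g S * p ^ S.card ≤ 1 / 2)
    (hsupp : ∀ S, g S ≠ 0 → S ∈ C) :
    ∃ G : Finset (Finset X), (∀ H ∈ F, ∃ S ∈ G, S ⊆ H) ∧
      ∑ S ∈ G, (p / (2500 * c ^ 2)) ^ S.card ≤ 1 / 2 := by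
  classical
  obtain ⟨D, hD⟩ : ∃ D : Finset (Finset X), D = C.filter (fun A => A.Nonempty) := ⟨_, rfl⟩
  have hDmem : ∀ A, A ∈ D ↔ A ∈ C ∧ A.Nonempty := by
    intro A
    rw [hD, Finset.mem_filter]
  have hneD : ∀ A ∈ D, A.Nonempty := fun A hA => ((hDmem A).mp hA).2
  have hunionD : ∀ A ∈ D, ∀ B ∈ D, ¬ Disjoint A B → A ∪ B ∈ D := by
    intro A hA B hB hAB
    rw [hDmem] at hA hB ⊢
    exact ⟨hunion A hA.1 B hB.1 hAB, hA.2.mono Finset.subset_union_left⟩
  have hgrowD : ∀ (x : X) (n : ℕ),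
      ((D.filter (fun A => x ∈ A ∧ A.card = n)).card : ℝ) ≤ c ^ n := by
    intro x n
    refine le_trans ?_ (hgrow x n)
    have : D.filter (fun A => x ∈ A ∧ A.card = n) ⊆ C.filter (fun A => x ∈ A ∧ A.card = n) := by
      intro A hA
      rw [Finset.mem_filter] at hA ⊢
      exact ⟨((hDmem A).mp hA.1).1, hA.2⟩
    exact_mod_cast Finset.card_le_card this
  have hsuppD : ∀ S, g S ≠ 0 → S = ∅ ∨ S ∈ D := by
    intro S hS
    rcases Finset.eq_empty_or_nonempty S with h | h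
    · exact Or.inl h
    · exact Or.inr ((hDmem S).mpr ⟨hsupp S hS, h⟩)
  have hpc : ∑ S ∈ D, g S * p ^ S.card ≤ 1 / 2 :=
    (Finset.sum_le_sum_of_subset_of_nonneg (Finset.subset_univ _)
      (fun S _ _ => mul_nonneg (hg0 S) (pow_nonneg hp0 _))).trans hcost
  have hfsum : ∀ J : Finset ℕ, ∑ s ∈ J, fcls D g p s ≤ 1 := fcls_sum D g hg0 p hp0 hpc
  have hclsex : ∀ R : Finset X, ∃ j : ℕ, 0 < Gw D g R →
      ((1 / 2 : ℝ) ^ (j + 1) < 2 * min (Gw D g R) (1 / 2) ∧
        2 * min (Gw D g R) (1 / 2) ≤ (1 / 2 : ℝ) ^ j) := by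
    intro R
    by_cases h : 0 < Gw D g R
    · have h0 : 0 < 2 * min (Gw D g R) (1 / 2) := by
        have : 0 < min (Gw D g R) (1 / 2) := lt_min h (by norm_num)
        linarith
      have h1 : 2 * min (Gw D g R) (1 / 2) ≤ 1 := by
        have : min (Gw D g R) (1 / 2) ≤ 1 / 2 := min_le_right _ _
        linarith
      obtain ⟨j, hj⟩ := exists_class2 _ h0 h1
      exact ⟨j, fun _ => hj⟩
    · exact ⟨0, fun h' => absurd h' h⟩
  choose cls hcls using hclsex
  obtain ⟨k, hk⟩ : ∃ k : ℕ → ℕ, ∀ s, k s = ⌊(2 : ℝ) ^ s * fcls D g p s / 4⌋₊ + s / 2 + 1 :=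
    ⟨fun s => ⌊(2 : ℝ) ^ s * fcls D g p s / 4⌋₊ + s / 2 + 1, fun _ => rfl⟩
  set Jall : Finset ℕ := (Finset.univ.filter (fun R : Finset X => 0 < Gw D g R)).image cls
    with hJall
  refine ⟨(Jall.sigma (fun s => PDfam D g s (k s))).image (fun x => x.2.biUnion id), ?_, ?_⟩
  · -- covering
    intro H hH
    have hgempty : g ∅ ≤ 1 / 2 := by
      have h1 : g ∅ * p ^ (∅ : Finset X).card ≤ ∑ S : Finset X, g S * p ^ S.card :=
        Finset.single_le_sum (f := fun S => g S * p ^ S.card)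
          (fun S _ => mul_nonneg (hg0 S) (by positivity)) (Finset.mem_univ ∅)
      simp only [Finset.card_empty, pow_zero, mul_one] at h1
      linarith
    have hm1 := hcov H hH
    have hm2 := support_mass D g hg0 hsuppD H
    obtain ⟨R, hRmem, hRdisj, hRsum⟩ := runs_exist D hunionD g hg0 H
    have hmass : 1 / 2 ≤ ∑ M ∈ R, Gw D g M := by linarith
    by_contra hcon
    have hcnt : ∀ s ∈ Jall, (R.filter (fun M => cls M = s)).card
        < ⌊(2 : ℝ) ^ s * fcls D g p s / 4⌋₊ + s / 2 + 1 := by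
      intro s hs
      rw [← hk s]
      by_contra hge
      rw [not_lt] at hge
      obtain ⟨T, hTsub, hTcard⟩ := Finset.exists_subset_card_eq hge
      have hTmem : ∀ M ∈ T, M ∈ R ∧ cls M = s := fun M hM => Finset.mem_filter.mp (hTsub hM)
      apply hcon
      refine ⟨T.biUnion id, ?_, ?_⟩
      · rw [Finset.mem_image]
        refine ⟨⟨s, T⟩, ?_, rfl⟩
        rw [Finset.mem_sigma]
        refine ⟨hs, ?_⟩
        rw [mem_PDfam]
        refine ⟨?_, hTcard, ?_⟩
        · intro M hM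
          obtain ⟨hMR, hMs⟩ := hTmem M hM
          obtain ⟨hM1, -, hM3⟩ := hRmem M hMR
          have hc' := hcls M hM3
          rw [hMs] at hc'
          have hmin1 : min (Gw D g M) (1 / 2) ≤ Gw D g M := min_le_left _ _
          rw [mem_Mcls]
          refine ⟨hM1, ?_, ?_⟩
          · have : (1 / 2 : ℝ) ^ (s + 2) = (1 / 2 : ℝ) ^ (s + 1) / 2 := by
              rw [pow_succ]
              ring
            linarith [hc'.1]
          · intro S hS
            have h1 := le_Gw D g hg0 hS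
            have h2 := hg1 S
            have h3 : g S ≤ 2 * min (Gw D g M) (1 / 2) := by
              rcases le_total (Gw D g M) (1 / 2) with h | h
              · rw [min_eq_left h]
                linarith [hg0 S]
              · rw [min_eq_right h]
                linarith
            have h4 : g S ≤ (1 / 2 : ℝ) ^ s := h3.trans hc'.2
            have h5 : (2 : ℝ) ^ s * (1 / 2 : ℝ) ^ s = 1 := by
              rw [← mul_pow]
              norm_num
            calc (2 : ℝ) ^ s * g S ≤ (2 : ℝ) ^ s * (1 / 2 : ℝ) ^ s :=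
                  mul_le_mul_of_nonneg_left h4 (by positivity)
              _ = 1 := h5
        · intro A hA B hB hAB
          exact hRdisj A (hTmem A (Finset.mem_coe.mp hA)).1 B (hTmem B (Finset.mem_coe.mp hB)).1
            hAB
      · apply Finset.biUnion_subset.mpr
        intro M hM
        exact (hRmem M (hTmem M hM).1).2.1
    have hMJ : ∀ M ∈ R, cls M ∈ Jall := by
      intro M hM
      rw [hJall]
      exact Finset.mem_image_of_mem cls
        (Finset.mem_filter.mpr ⟨Finset.mem_univ _, (hRmem M hM).2.2⟩)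
    have h7 : ∑ M ∈ R, min (Gw D g M) (1 / 2) ≤ 1 / 3 + 1 / 8 := by
      apply counting2 R cls Jall (fun s => fcls D g p s)
        (fun s => fcls_nonneg D g hg0 p hp0 s) (hfsum Jall) hMJ hcnt
      intro M hM
      have hc' := (hcls M (hRmem M hM).2.2).2
      rw [pow_succ]
      linarith
    have h8 : min (∑ M ∈ R, Gw D g M) (1 / 2) ≤ ∑ M ∈ R, min (Gw D g M) (1 / 2) :=
      sum_min_le R (Gw D g) (fun M _ => Gw_nonneg D g hg0 M) (1 / 2) (by norm_num)
    have h9 : (1 / 2 : ℝ) ≤ min (∑ M ∈ R, Gw D g M) (1 / 2) := le_min hmass le_rfl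
    linarith
  · -- cost
    calc ∑ U ∈ (Jall.sigma (fun s => PDfam D g s (k s))).image (fun x => x.2.biUnion id),
          (p / (2500 * c ^ 2)) ^ U.card
        ≤ ∑ x ∈ Jall.sigma (fun s => PDfam D g s (k s)),
            (p / (2500 * c ^ 2)) ^ (x.2.biUnion id).card :=
          Finset.sum_image_le_of_nonneg (fun U _ => by
            have hc0 : 0 < c := by linarith
            positivity)
      _ = ∑ s ∈ Jall, ∑ J ∈ PDfam D g s (k s), (p / (2500 * c ^ 2)) ^ (J.biUnion id).card :=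
          Finset.sum_sigma _ _ _
      _ ≤ ∑ s ∈ Jall, (1 / 3 : ℝ) ^ (s + 1) :=
          Finset.sum_le_sum (fun s _ =>
            class_cost2 D c hc hneD hgrowD g hg0 p hp0 hp1 s (k s) (hk s))
      _ ≤ (1 / 3) / (1 - 1 / 3) := geom_bound (1 / 3) (by norm_num) (by norm_num) Jall
      _ = 1 / 2 := by norm_num

/-- Let `C` be a family of subsets of a finite set `X` that is closed under unions of
intersecting pairs and in which every point lies in at most `c ^ n` members of size `n`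
(for every `n`). Whenever a family `F` has a fractional cover `g` of cost at most `1/2` at
`p ∈ [0,1]` whose support is contained in `C`, the family `F` has a cover of cost at most `1/2`
at `p / (2500 c ^ 2)`. -/
theorem result (X : Type) [Fintype X] [DecidableEq X]
    (C : Finset (Finset X)) (c : ℝ) (hc : 1 ≤ c)
    (hunion : ∀ A ∈ C, ∀ B ∈ C, ¬ Disjoint A B → A ∪ B ∈ C)
    (hgrow : ∀ (x : X) (n : ℕ), ((C.filter (fun A => x ∈ A ∧ A.card = n)).card : ℝ) ≤ c ^ n)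
    (F : Finset (Finset X)) (g : Finset X → ℝ) (p : ℝ) (hp0 : 0 ≤ p) (hp1 : p ≤ 1)
    (hg0 : ∀ S, 0 ≤ g S)
    (hcov : ∀ H ∈ F, 1 ≤ ∑ S ∈ H.powerset, g S)
    (hcost : ∑ S : Finset X, g S * p ^ S.card ≤ 1 / 2)
    (hsupp : ∀ S, g S ≠ 0 → S ∈ C) :
    ∃ G : Finset (Finset X), (∀ H ∈ F, ∃ S ∈ G, S ⊆ H) ∧
      ∑ S ∈ G, (p / (2500 * c ^ 2)) ^ S.card ≤ 1 / 2 := by
  apply core X C c hc hunion hgrow F (fun S => min (g S) 1) p hp0 hp1
    (fun S => le_min (hg0 S) zero_le_one) (fun S => min_le_right _ _)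
  · intro H hH
    have h1 := sum_min_le H.powerset g (fun S _ => hg0 S) 1 zero_le_one
    have h2 : (1 : ℝ) ≤ min (∑ S ∈ H.powerset, g S) 1 := le_min (hcov H hH) le_rfl
    linarith
  · refine le_trans (Finset.sum_le_sum (fun S _ => ?_)) hcost
    exact mul_le_mul_of_nonneg_right (min_le_left _ _) (pow_nonneg hp0 _)
  · intro S hS
    apply hsupp S
    intro h0
    apply hS
    rw [h0]
    exact min_eq_left zero_le_one

end Vale.Agent.Results.P034.LocalGrowth
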